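import Vale.Agent.Lib.P147.AtomN

/-! P147, second version: atoms of sums of signs in `k` directions. -/

open Finset

namespace Vale.Agent.Lib.P147G

open Vale.Agent.Lib.P147

theorem atomG {k : ℕ} (q : Fin k → Bool → ℝ) (hq : ∀ a σ, 0 < q a σ)
    (hq1 : ∀ a, q a true + q a false = 1) :
    ∃ C : ℝ, 0 ≤ C ∧ ∀ (ι : Type) [Fintype ι] [DecidableEq ι] (dir : ι → Fin k) (m : ℕ), 0 < m →
      (∀ a, m ≤ (Finset.univ.filter (fun t => dir t = a)).card) → ∀ v : Fin k → ℤ,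
      (∑ σ : ι → Bool, if (∀ a, ∑ t ∈ Finset.univ.filter (fun t => dir t = a),
          (if σ t then (1 : ℤ) else -1) = v a) then ∏ t, q (dir t) (σ t) else 0)
        ≤ C / (Real.sqrt m) ^ k := by
  obtain ⟨C, hC, h⟩ := atomN q hq hq1
  refine ⟨C, hC, fun ι _ _ dir m hm hcard v => ?_⟩
  have h1 := h ι dir m hm hcard v
  have hm0 : (0:ℝ) < m := by exact_mod_cast hm
  have h2 : (Real.sqrt m) ^ k = (m : ℝ) ^ ((k : ℝ) / 2) := by
    rw [Real.sqrt_eq_rpow, ← Real.rpow_natCast, ← Real.rpow_mul hm0.le]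
    congr 1
    ring
  rw [h2]
  exact h1

end Vale.Agent.Lib.P147G
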