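import Vale.Agent.Lib.P147.Ext

/-! P147, second version: `q` lateral directions, downward walks with a general growth `ψ`. -/

open MeasureTheory
open scoped ENNReal

namespace Vale.Agent.Lib.P147G

open Vale.Agent.Lib.P147

variable {d : ℕ}

/-- escape downwards at rate `ψ`, never above the starting level -/
def DownP (i : Fin d) (ψ : ℕ → ℝ) : Set (ℕ → Step d) :=
  {s | ∀ n : ℕ, pos s n i ≤ 0 ∧ ψ n ≤ -(pos s n i : ℝ)}

/-- finite horizon version of `DownP` -/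
def DownPH (i : Fin d) (ψ : ℕ → ℝ) (l : List (Step d)) : Prop :=
  ∀ n ≤ l.length, endp (l.take n) i ≤ 0 ∧ ψ n ≤ -(endp (l.take n) i : ℝ)

/-- good downward walks: `DownP` and enough marks of each of the `q` types
(`2 ^ (p l)` marks among the levels `< 2 ^ ((p + 1) l)`) -/
def GoodG (i : Fin d) {q : ℕ} (j : Fin q → Fin d) (ψ : ℕ → ℝ) (p l₀ : ℕ) : Set (ℕ → Step d) :=
  {s | s ∈ DownP i ψ ∧ ∀ l, l₀ ≤ l → ∀ a, 2 ^ (p * l) ≤ nMark i (j a) s (2 ^ ((p + 1) * l))}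

/-- the `q`-dimensional lateral box -/
noncomputable def BoxG {q : ℕ} (j : Fin q → Fin d) (R : ℕ) : Finset (Fin d → ℤ) :=
  (Fintype.piFinset (fun _ : Fin q => Finset.range R)).image
    (fun z => ∑ a, Pi.single (j a) ((z a : ℕ) : ℤ))

/-- conclusion of the spread estimate, with constant `C` -/
def SpreadG (ν : Measure (ℕ → Step d)) (i : Fin d) {q : ℕ} (j : Fin q → Fin d) (C : ℝ) : Prop :=
  ∀ (ψ : ℕ → ℝ) (n m Λ : ℕ) (u : Fin d → ℤ), 0 < m → (Λ : ℤ) ≤ -u i →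
      ν {s | s ∈ DownP i ψ ∧ (∀ a, m ≤ nMark i (j a) s Λ) ∧ pos s n = u} ≤
        ENNReal.ofReal (C / (Real.sqrt m) ^ q) *
          ν {s | s ∈ DownP i ψ ∧ pos s n i = u i}

end Vale.Agent.Lib.P147G
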