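import Vale.Agent.Lib.P147G.Defs
import Vale.Agent.Lib.P147.Green

/-! P147, module GREENG: the expected number of visits in a lateral box is `o(R ^ q)`. -/

open MeasureTheory ProbabilityTheory Filter
open scoped ENNReal

namespace Vale.Agent.Lib.P147G

open Vale.Agent.Lib.P147

variable {d : ℕ}

theorem measurableSet_DownP (i : Fin d) (ψ : ℕ → ℝ) : MeasurableSet (DownP i ψ) := by
  have : DownP i ψ = Ev (fun l : List (Step d) => endp l i ≤ 0 ∧
      ψ l.length ≤ -(endp l i : ℝ)) := by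
    ext s
    simp [DownP, Ev, pos]
  rw [this]
  exact measurableSet_Ev _

/-- expected number of visits to the level `- lam` -/
noncomputable def VisG (ν : Measure (ℕ → Step d)) (i : Fin d) (ψ : ℕ → ℝ) (lam : ℕ) : ℝ≥0∞ :=
  ∑' n : ℕ, ν {s | s ∈ DownP i ψ ∧ pos s n i = -(lam : ℤ)}

theorem sum_VisG {ν : Measure (ℕ → Step d)} (h : Law ν) (i : Fin d) {c b β : ℝ} (hc : 0 < c)
    (hb : 0 ≤ b) (hβ : 0 < β) (Λ : ℕ) :
    ∑ lam ∈ Finset.range Λ, VisG ν i (fun n => c * (n : ℝ) ^ β - b) lam ≤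
      ENNReal.ofReal (((Λ + b) / c) ^ (1 / β) + 1) := by
  unfold VisG
  rw [← Summable.tsum_finsetSum (fun _ _ => ENNReal.summable)]
  set Y : ℝ := ((Λ + b) / c) ^ (1 / β) with hY
  have hY0 : 0 ≤ Y := by positivity
  set N : ℕ := ⌊Y⌋₊ + 1 with hN
  have h1 : ∀ n : ℕ, ∑ lam ∈ Finset.range Λ,
      ν {s | s ∈ DownP i (fun n => c * (n : ℝ) ^ β - b) ∧ pos s n i = -(lam : ℤ)}
      ≤ if n < N then 1 else 0 := by
    intro n
    rw [← measure_biUnion_finset]
    · split_ifs with hn
      · exact (measure_mono (Set.subset_univ _)).trans (le_of_eq h.prob)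
      · rw [nonpos_iff_eq_zero]
        convert measure_empty (μ := ν)
        rw [Set.eq_empty_iff_forall_notMem]
        intro s hs
        simp only [Set.mem_iUnion, Set.mem_setOf_eq, Finset.mem_range] at hs
        obtain ⟨lam, hlam, hD, hp⟩ := hs
        have h2 := (hD n).2
        rw [hp] at h2
        have h3 : Y < n := by
          refine (Nat.lt_floor_add_one _).trans_le ?_
          have : N ≤ n := not_lt.mp hn
          have h4 : ((⌊Y⌋₊ : ℝ) + 1) = (N : ℝ) := by rw [hN]; push_cast; ring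
          rw [h4]
          exact_mod_cast this
        have h6 : (Λ + b) / c < (n : ℝ) ^ β := by
          have h7 : Y ^ β = (Λ + b) / c := by
            rw [hY, ← Real.rpow_mul (by positivity), one_div, inv_mul_cancel₀ hβ.ne',
              Real.rpow_one]
          rw [← h7]
          exact Real.rpow_lt_rpow hY0 h3 hβ
        rw [div_lt_iff₀ hc] at h6
        have h5 : (lam : ℝ) < Λ := by exact_mod_cast hlam
        push_cast at h2
        linarith
    · intro x _ y _ hxy
      rw [Function.onFun, Set.disjoint_left]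
      intro s hs ht
      simp only [Set.mem_setOf_eq] at hs ht
      have := hs.2.symm.trans ht.2
      apply hxy
      have h6 : (x : ℤ) = y := by linarith
      exact_mod_cast h6
    · intro lam _
      refine (measurableSet_DownP i _).inter ?_
      exact (green_measurable_posi i n) (measurableSet_singleton _)
  refine (ENNReal.tsum_le_tsum h1).trans ?_
  rw [tsum_eq_sum (s := Finset.range N) (fun n hn => by
    rw [if_neg]; simpa using hn)]
  rw [Finset.sum_congr rfl (fun n hn => if_pos (Finset.mem_range.mp hn))]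
  simp only [Finset.sum_const, Finset.card_range, nsmul_eq_mul, mul_one]
  rw [← ENNReal.ofReal_natCast]
  apply ENNReal.ofReal_le_ofReal
  rw [hN]
  push_cast
  have : (⌊Y⌋₊ : ℝ) ≤ Y := Nat.floor_le hY0
  linarith

theorem boxG_zero {i : Fin d} {q : ℕ} {j : Fin q → Fin d} (hij : ∀ a, j a ≠ i) {R : ℕ}
    {z : Fin d → ℤ} (hz : z ∈ BoxG j R) : z i = 0 := by
  simp only [BoxG, Finset.mem_image] at hz
  obtain ⟨w, _, rfl⟩ := hz
  rw [Finset.sum_apply]
  refine Finset.sum_eq_zero fun a _ => ?_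
  rw [Pi.single_apply, if_neg (hij a).symm]

theorem boxG_card {q : ℕ} (j : Fin q → Fin d) (R : ℕ) : (BoxG j R).card ≤ R ^ q := by
  unfold BoxG
  refine Finset.card_image_le.trans ?_
  rw [Fintype.card_piFinset]
  simp

/-- trivial bound -/
theorem boxG_bound {ν : Measure (ℕ → Step d)} (i : Fin d) {q : ℕ} (j : Fin q → Fin d)
    (hij : ∀ a, j a ≠ i) (ψ : ℕ → ℝ) (p l₀ R : ℕ) (v : Fin d → ℤ) (lam : ℕ)
    (hv : v i = -(lam : ℤ)) :
    ∑ z ∈ BoxG j R, ν (GoodG i j ψ p l₀ ∩ {s | ∃ n, pos s n = v - z}) ≤ VisG ν i ψ lam := by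
  have h1 : ∀ z ∈ BoxG j R, ν (GoodG i j ψ p l₀ ∩ {s | ∃ n, pos s n = v - z})
      ≤ ∑' n : ℕ, ν {s | s ∈ DownP i ψ ∧ pos s n = v - z} := by
    intro z _
    refine (measure_mono ?_).trans (measure_iUnion_le _)
    rintro s ⟨hs, n, hn⟩
    exact Set.mem_iUnion.mpr ⟨n, hs.1, hn⟩
  refine (Finset.sum_le_sum h1).trans ?_
  rw [← Summable.tsum_finsetSum (fun _ _ => ENNReal.summable)]
  refine ENNReal.tsum_le_tsum fun n => ?_
  rw [← measure_biUnion_finset]
  · refine measure_mono ?_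
    intro s hs
    simp only [Set.mem_iUnion, Set.mem_setOf_eq] at hs
    obtain ⟨z, hz, hD, hp⟩ := hs
    refine ⟨hD, ?_⟩
    rw [hp, Pi.sub_apply, boxG_zero hij hz, hv, sub_zero]
  · intro x _ y _ hxy
    rw [Function.onFun, Set.disjoint_left]
    intro s hs ht
    simp only [Set.mem_setOf_eq] at hs ht
    have := hs.2.symm.trans ht.2
    exact hxy (sub_right_injective this)
  · intro z _
    refine (measurableSet_DownP i _).inter ?_
    exact (green_measurable_pos n) (measurableSet_singleton _)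

/-- the bound from the marks -/
theorem boxG_bound2 {ν : Measure (ℕ → Step d)} (i : Fin d) {q : ℕ} (j : Fin q → Fin d)
    (hij : ∀ a, j a ≠ i) {C : ℝ} (hS : SpreadG ν i j C) (ψ : ℕ → ℝ) (p l₀ R : ℕ)
    (v : Fin d → ℤ) (lam : ℕ) (hv : v i = -(lam : ℤ)) (l : ℕ) (hl : l₀ ≤ l)
    (hlam : 2 ^ ((p + 1) * l) ≤ lam) :
    ∑ z ∈ BoxG j R, ν (GoodG i j ψ p l₀ ∩ {s | ∃ n, pos s n = v - z}) ≤
      (R : ℝ≥0∞) ^ q * ENNReal.ofReal (C / (Real.sqrt ((2 ^ (p * l) : ℕ) : ℝ)) ^ q) *
        VisG ν i ψ lam := by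
  have h1 : ∀ z ∈ BoxG j R, ν (GoodG i j ψ p l₀ ∩ {s | ∃ n, pos s n = v - z})
      ≤ ENNReal.ofReal (C / (Real.sqrt ((2 ^ (p * l) : ℕ) : ℝ)) ^ q) * VisG ν i ψ lam := by
    intro z hz
    have h2 : ν (GoodG i j ψ p l₀ ∩ {s | ∃ n, pos s n = v - z}) ≤ ∑' n : ℕ,
        ν {s | s ∈ DownP i ψ ∧ (∀ a, 2 ^ (p * l) ≤ nMark i (j a) s (2 ^ ((p + 1) * l))) ∧
          pos s n = v - z} := by
      refine (measure_mono ?_).trans (measure_iUnion_le _)
      rintro s ⟨hs, n, hn⟩
      exact Set.mem_iUnion.mpr ⟨n, hs.1, hs.2 l hl, hn⟩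
    refine h2.trans ?_
    unfold VisG
    rw [← ENNReal.tsum_mul_left]
    refine ENNReal.tsum_le_tsum fun n => ?_
    have hzi : (v - z) i = -(lam : ℤ) := by
      rw [Pi.sub_apply, boxG_zero hij hz, hv, sub_zero]
    have h3 := hS ψ n (2 ^ (p * l)) (2 ^ ((p + 1) * l)) (v - z) (by positivity) (by
      rw [hzi, neg_neg]
      exact_mod_cast hlam)
    rw [hzi] at h3
    exact h3
  refine (Finset.sum_le_sum h1).trans ?_
  rw [Finset.sum_const, nsmul_eq_mul, mul_assoc]
  gcongr
  exact_mod_cast boxG_card j R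

theorem greenG {ν : Measure (ℕ → Step d)} (h : Law ν) (i : Fin d) {q : ℕ} (j : Fin q → Fin d)
    (hij : ∀ a, j a ≠ i) {C : ℝ} (hC : 0 ≤ C) (hS : SpreadG ν i j C)
    {c b β : ℝ} (hc : 0 < c) (hb : 0 ≤ b) (hβ : 0 < β) (p l₀ : ℕ)
    (hexp : 2 * ((p : ℝ) + 1) < β * (p * q))
    {ε : ℝ} (hε : 0 < ε) :
    ∃ (R : ℕ) (g : ℕ → ℝ≥0∞), 0 < R ∧
      (∀ (v : Fin d → ℤ) (lam : ℕ), v i = -(lam : ℤ) →
        ∑ z ∈ BoxG j R, ν (GoodG i j (fun n => c * (n : ℝ) ^ β - b) p l₀ ∩
          {s | ∃ n, pos s n = v - z}) ≤ g lam) ∧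
      ∑' lam, g lam ≤ ENNReal.ofReal (ε * (R : ℝ) ^ q) := by
  have hq0 : q ≠ 0 := by
    rintro rfl
    have : (0 : ℝ) ≤ p := Nat.cast_nonneg p
    simp only [Nat.cast_zero, mul_zero] at hexp
    linarith
  set A : ℕ := 2 ^ (p + 1) with hA
  have hA2 : 2 ≤ A := by
    rw [hA, pow_succ]
    have : 1 ≤ 2 ^ p := Nat.one_le_two_pow
    omega
  have hA1 : (1 : ℝ) ≤ A := by exact_mod_cast (by omega : 1 ≤ A)
  have hAl : ∀ l : ℕ, 2 ^ ((p + 1) * l) = A ^ l := fun l => by rw [hA, pow_mul]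
  set w : ℝ := (Real.sqrt ((2 : ℝ) ^ p)) ^ q with hw
  set a : ℝ := (A : ℝ) ^ (1 / β) with ha
  have hw0 : 0 < w := by positivity
  have ha1 : 1 ≤ a := Real.one_le_rpow hA1 (by positivity)
  have ha0 : 0 < a := by linarith
  have haw : a < w := by
    have h1 : w = (2 : ℝ) ^ ((p : ℝ) * q / 2) := by
      rw [hw, Real.sqrt_eq_rpow, ← Real.rpow_natCast, ← Real.rpow_natCast, ← Real.rpow_mul
        (by norm_num), ← Real.rpow_mul (by norm_num)]
      congr 1
      ring
    have h2 : a = (2 : ℝ) ^ (((p : ℝ) + 1) / β) := by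
      rw [ha, hA]
      push_cast
      rw [← Real.rpow_natCast, ← Real.rpow_mul (by norm_num)]
      congr 1
      push_cast
      ring
    rw [h1, h2]
    apply Real.rpow_lt_rpow_of_exponent_lt (by norm_num)
    rw [div_lt_iff₀ hβ]
    linarith
  set ρ : ℝ := a / w with hρ
  have hρ0 : 0 < ρ := by positivity
  have hρ1 : ρ < 1 := by rw [hρ, div_lt_one hw0]; exact haw
  have hpow : ∀ l : ℕ, (Real.sqrt ((2 ^ (p * l) : ℕ) : ℝ)) ^ q = w ^ l := by
    intro l
    push_cast
    have h1 : Real.sqrt ((2 : ℝ) ^ (p * l)) = (Real.sqrt ((2 : ℝ) ^ p)) ^ l := by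
      rw [pow_mul]
      induction l with
      | zero => simp
      | succ l ih => rw [pow_succ, Real.sqrt_mul (by positivity), ih, pow_succ]
    rw [h1, hw, ← pow_mul, ← pow_mul, mul_comm]
  set D : ℝ := C * (((A + b) / c) ^ (1 / β) + 1) with hD
  have hD0 : 0 ≤ D := by positivity
  set D' : ℝ := D / (1 - ρ) with hD'
  have hD'0 : 0 ≤ D' := div_nonneg hD0 (by linarith)
  set ψ : ℕ → ℝ := fun n => c * (n : ℝ) ^ β - b with hψ
  -- choice of `l₁`
  obtain ⟨l₁, hl₁, hl₁ρ⟩ : ∃ l₁ : ℕ, l₀ ≤ l₁ ∧ D' * ρ ^ l₁ ≤ ε / 2 := by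
    have h1 : Tendsto (fun l : ℕ => D' * ρ ^ l) atTop (nhds (D' * 0)) :=
      (tendsto_pow_atTop_nhds_zero_of_lt_one hρ0.le hρ1).const_mul D'
    rw [mul_zero] at h1
    have h2 := h1.eventually (gt_mem_nhds (half_pos hε))
    obtain ⟨l₁, h3, h4⟩ := (h2.and (eventually_ge_atTop l₀)).exists
    exact ⟨l₁, h4, h3.le⟩
  set B₁ : ℝ := ((((A ^ l₁ : ℕ) : ℝ) + b) / c) ^ (1 / β) + 1 with hB₁
  have hB₁0 : 0 ≤ B₁ := by positivity
  obtain ⟨R, hR, hR0⟩ : ∃ R : ℕ, 2 * B₁ / ε ≤ R ∧ 0 < R := by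
    obtain ⟨R, hR⟩ := exists_nat_ge (2 * B₁ / ε)
    exact ⟨R + 1, hR.trans (by push_cast; linarith), Nat.succ_pos R⟩
  have hR1 : (1 : ℝ) ≤ R := by exact_mod_cast hR0
  have hB₁R : B₁ ≤ ε / 2 * (R : ℝ) ^ q := by
    have h1 : (R : ℝ) ≤ (R : ℝ) ^ q := le_self_pow₀ hR1 hq0
    rw [div_le_iff₀ hε] at hR
    nlinarith
  refine ⟨R, fun lam => if lam < A ^ l₁ then VisG ν i ψ lam else
      (R : ℝ≥0∞) ^ q * ENNReal.ofReal (C / (Real.sqrt ((2 ^ (p * (Nat.log A lam)) : ℕ) : ℝ)) ^ q) *
        VisG ν i ψ lam, hR0, ?_, ?_⟩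
  · intro v lam hv
    simp only
    split_ifs with hlam
    · exact boxG_bound i j hij ψ p l₀ R v lam hv
    · rw [not_lt] at hlam
      have h0 : lam ≠ 0 := by
        rintro rfl
        have : 0 < A ^ l₁ := by positivity
        omega
      refine boxG_bound2 i j hij hS ψ p l₀ R v lam hv _ (hl₁.trans ?_) ?_
      · exact Nat.le_log_of_pow_le (by omega) hlam
      · rw [hAl]
        exact Nat.pow_log_le_self A h0
  · set g : ℕ → ℝ≥0∞ := fun lam => if lam < A ^ l₁ then VisG ν i ψ lam else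
      (R : ℝ≥0∞) ^ q * ENNReal.ofReal (C / (Real.sqrt ((2 ^ (p * (Nat.log A lam)) : ℕ) : ℝ)) ^ q) *
        VisG ν i ψ lam with hg
    have hind : ∀ K : ℕ, ∑ lam ∈ Finset.range (A ^ (l₁ + K)), g lam ≤
        ENNReal.ofReal (B₁ + (R : ℝ) ^ q * (D' * (ρ ^ l₁ - ρ ^ (l₁ + K)))) := by
      intro K
      induction K with
      | zero =>
        simp only [add_zero, sub_self, mul_zero]
        have h1 : ∑ lam ∈ Finset.range (A ^ l₁), g lam
            = ∑ lam ∈ Finset.range (A ^ l₁), VisG ν i ψ lam :=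
          Finset.sum_congr rfl fun lam hlam => by
            rw [hg]
            simp only
            rw [if_pos (Finset.mem_range.mp hlam)]
        rw [h1]
        exact sum_VisG h i hc hb hβ _
      | succ K ih =>
        set k := l₁ + K with hk
        have hk1 : l₁ + (K + 1) = k + 1 := by omega
        rw [hk1]
        have hle : A ^ k ≤ A ^ (k + 1) := Nat.pow_le_pow_right (by omega) (Nat.le_succ k)
        rw [← Finset.sum_range_add_sum_Ico _ hle]
        have h2 : ∑ lam ∈ Finset.Ico (A ^ k) (A ^ (k + 1)), g lam ≤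
            ENNReal.ofReal ((R : ℝ) ^ q * (D * ρ ^ k)) := by
          have h3 : ∀ lam ∈ Finset.Ico (A ^ k) (A ^ (k + 1)), g lam =
              (R : ℝ≥0∞) ^ q * ENNReal.ofReal (C / w ^ k) * VisG ν i ψ lam := by
            intro lam hlam
            rw [Finset.mem_Ico] at hlam
            have h4 : ¬ lam < A ^ l₁ := by
              have : A ^ l₁ ≤ A ^ k :=
                Nat.pow_le_pow_right (by omega) (Nat.le_add_right _ _)
              omega
            have h0 : lam ≠ 0 := by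
              rintro rfl
              have : 0 < A ^ k := by positivity
              omega
            have h5 : Nat.log A lam = k :=
              (Nat.log_eq_iff (Or.inr ⟨by omega, h0⟩)).mpr hlam
            rw [hg]
            simp only
            rw [if_neg h4, h5, hpow]
          rw [Finset.sum_congr rfl h3, ← Finset.mul_sum]
          have h6 : ∑ lam ∈ Finset.Ico (A ^ k) (A ^ (k + 1)), VisG ν i ψ lam ≤
              ENNReal.ofReal ((((((A ^ (k + 1) : ℕ) : ℝ)) + b) / c) ^ (1 / β) + 1) := by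
            refine le_trans ?_ (sum_VisG h i hc hb hβ _)
            refine Finset.sum_le_sum_of_subset ?_
            intro x hx
            rw [Finset.mem_Ico] at hx
            exact Finset.mem_range.mpr hx.2
          refine (mul_le_mul_right h6 _).trans ?_
          have h7 : (R : ℝ≥0∞) ^ q = ENNReal.ofReal ((R : ℝ) ^ q) := by
            rw [ENNReal.ofReal_pow (by positivity), ENNReal.ofReal_natCast]
          rw [h7, ← ENNReal.ofReal_mul (by positivity), ← ENNReal.ofReal_mul (by positivity)]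
          apply ENNReal.ofReal_le_ofReal
          rw [mul_assoc]
          refine mul_le_mul_of_nonneg_left ?_ (by positivity)
          have h8 : (((((A ^ (k + 1) : ℕ) : ℝ)) + b) / c) ^ (1 / β) + 1 ≤
              a ^ k * (((A + b) / c) ^ (1 / β) + 1) := by
            have h9 : (1 : ℝ) ≤ (A : ℝ) ^ k := one_le_pow₀ hA1
            have h9' : (1 : ℝ) ≤ a ^ k := one_le_pow₀ ha1
            rw [mul_add, mul_one]
            refine add_le_add ?_ h9'
            have h10 : a ^ k = ((A : ℝ) ^ k) ^ (1 / β) := by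
              rw [ha, ← Real.rpow_natCast, ← Real.rpow_natCast, ← Real.rpow_mul (by positivity),
                ← Real.rpow_mul (by positivity), mul_comm]
            rw [h10, ← Real.mul_rpow (by positivity) (by positivity)]
            apply Real.rpow_le_rpow (by positivity) _ (by positivity)
            rw [← mul_div_assoc]
            refine div_le_div_of_nonneg_right ?_ hc.le
            push_cast
            rw [pow_succ]
            nlinarith
          calc C / w ^ k * ((((((A ^ (k + 1) : ℕ) : ℝ)) + b) / c) ^ (1 / β) + 1)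
              ≤ C / w ^ k * (a ^ k * (((A + b) / c) ^ (1 / β) + 1)) :=
                mul_le_mul_of_nonneg_left h8 (by positivity)
            _ = D * ρ ^ k := by
                rw [hD, hρ, div_pow]
                field_simp
        refine (add_le_add ih h2).trans ?_
        rw [← ENNReal.ofReal_add]
        · apply ENNReal.ofReal_le_ofReal
          have h10 : D * ρ ^ k = D' * (ρ ^ k - ρ ^ (k + 1)) := by
            rw [hD', pow_succ]
            have : (1 - ρ) ≠ 0 := by linarith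
            field_simp
          rw [h10]
          apply le_of_eq
          ring
        · have h11 : ρ ^ k ≤ ρ ^ l₁ :=
            pow_le_pow_of_le_one hρ0.le hρ1.le (Nat.le_add_right _ _)
          have : 0 ≤ ρ ^ l₁ - ρ ^ k := by linarith
          positivity
        · positivity
    refine ENNReal.tsum_le_of_sum_range_le fun n => ?_
    have h12 : Finset.range n ⊆ Finset.range (A ^ (l₁ + n)) := by
      intro x hx
      rw [Finset.mem_range] at hx ⊢
      calc x < n := hx
        _ < A ^ n := Nat.lt_pow_self (by omega)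
        _ ≤ A ^ (l₁ + n) := Nat.pow_le_pow_right (by omega) (Nat.le_add_left _ _)
    refine (Finset.sum_le_sum_of_subset h12).trans ((hind n).trans ?_)
    apply ENNReal.ofReal_le_ofReal
    have h13 : D' * (ρ ^ l₁ - ρ ^ (l₁ + n)) ≤ ε / 2 := by
      have : 0 ≤ D' * ρ ^ (l₁ + n) := by positivity
      nlinarith
    have h14 : (0 : ℝ) ≤ (R : ℝ) ^ q := by positivity
    nlinarith

end Vale.Agent.Lib.P147G
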