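import Vale.Agent.Lib.P147.Marks
import Vale.Agent.Lib.P147G.Defs

/-! P147, second version: number of marks, from a lower bound for the hitting probabilities. -/

open MeasureTheory ProbabilityTheory Filter
open scoped ENNReal

namespace Vale.Agent.Lib.P147G

open Vale.Agent.Lib.P147

variable {d : ℕ}

theorem MARKS_hitG {i : Fin d} (μ : ℕ) :
    {s : ℕ → Step d | ∃ t, pos s t i = -(μ : ℤ)} ⊆ ⋃ γ ∈ MARKS_G i μ, cyl γ := by
  classical
  rintro s ⟨t, ht⟩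
  have hex : ∃ n, pos s n i ≤ -(μ : ℤ) := ⟨t, ht.le⟩
  have hmin : ∀ k < Nat.find hex, -(μ : ℤ) < pos s k i := fun k hk =>
    not_le.1 (Nat.find_min hex hk)
  have hsp := Nat.find_spec hex
  have heq : pos s (Nat.find hex) i = -(μ : ℤ) := by
    rcases Nat.eq_zero_or_eq_succ_pred (Nat.find hex) with h0 | h0
    · rw [h0] at hsp ⊢
      rw [pos_zero, Pi.zero_apply] at hsp ⊢
      omega
    · have h1 := hmin (Nat.find hex).pred (by omega)
      have h2 := MARKS_step_ge s (Nat.find hex).pred i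
      rw [← Nat.succ_eq_add_one, ← h0] at h2
      omega
  simp only [Set.mem_iUnion]
  refine ⟨pre s (Nat.find hex), ⟨heq, fun k hk => ?_⟩, pre_mem_cyl s _⟩
  rw [pre_length] at hk
  rw [pre_take s hk.le]
  exact hmin k hk

theorem MARKS_measure_UG {ν : Measure (ℕ → Step d)} (h : Law ν) {i j : Fin d} (hij : j ≠ i)
    {δ : ℝ≥0∞} (hhit : ∀ μ : ℕ, δ ≤ ν {s | ∃ t, pos s t i = -(μ : ℤ)}) (m Λ μ : ℕ) :
    δ * ν (cyl [(j, true)]) * ν (cyl [(i, false)]) * ν (MARKS_A i j m Λ) ≤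
      ν (MARKS_U i j m Λ μ) := by
  unfold MARKS_U
  rw [measure_biUnion (Set.to_countable _) ?_ fun γ _ => MARKS_measurableSet_E i j m Λ μ γ]
  · have h1 : δ ≤ ∑' γ : MARKS_G i μ, ν (cyl (γ : List (Step d))) := by
      refine (hhit μ).trans ((measure_mono (MARKS_hitG μ)).trans ?_)
      exact measure_biUnion_le ν (Set.to_countable _) _
    have h2 : MARKS_A (d := d) i j m Λ ⊆ MARKS_A i j m (Λ - μ - 1) := by
      rintro s ⟨hs1, hs2⟩
      exact ⟨lt_of_le_of_lt (MARKS_mono i j s (by omega)) hs1, hs2⟩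
    calc δ * ν (cyl [(j, true)]) * ν (cyl [(i, false)]) * ν (MARKS_A i j m Λ)
        ≤ (∑' γ : MARKS_G i μ, ν (cyl (γ : List (Step d)))) * ν (cyl [(j, true)]) *
          ν (cyl [(i, false)]) * ν (MARKS_A i j m (Λ - μ - 1)) := by
          gcongr
      _ = ∑' γ : MARKS_G i μ, ν (MARKS_E i j m Λ μ (γ : List (Step d))) := by
          rw [← ENNReal.tsum_mul_right, ← ENNReal.tsum_mul_right, ← ENNReal.tsum_mul_right]
          refine tsum_congr fun γ => ?_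
          rw [MARKS_measure_E h hij m Λ μ γ.2]
  · intro γ hγ γ' hγ' hne
    refine (MARKS_G_disjoint hγ hγ' hne).mono ?_ ?_
    · exact fun s hs => (mem_cyl_append.1 hs.1).1
    · exact fun s hs => (mem_cyl_append.1 hs.1).1

theorem marksG {ν : Measure (ℕ → Step d)} (h : Law ν) (i j : Fin d) (hij : j ≠ i)
    {δ : ℝ≥0∞} (hδ : 0 < δ) (hhit : ∀ μ : ℕ, δ ≤ ν {s | ∃ t, pos s t i = -(μ : ℤ)}) :
    ∃ C : ℝ, 0 ≤ C ∧ ∀ m Λ : ℕ, 0 < Λ →
      ν {s | (∀ n, pos s n i ≤ 0) ∧ nMark i j s Λ < m} ≤ ENNReal.ofReal (C * m / Λ) := by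
  set K : ℝ≥0∞ := δ * ν (cyl [(j, true)]) * ν (cyl [(i, false)]) with hK
  have hK0 : K ≠ 0 := by
    rw [hK]
    exact mul_ne_zero (mul_ne_zero hδ.ne' (h.pos _).ne') (h.pos _).ne'
  have hKt : K ≠ ⊤ := by
    rw [hK]
    exact ENNReal.mul_ne_top (ENNReal.mul_ne_top (ne_top_of_le_ne_top (h.ne_top _) (hhit 0)) (h.ne_top _)) (h.ne_top _)
  have hKpos : 0 < K.toReal := ENNReal.toReal_pos hK0 hKt
  refine ⟨K.toReal⁻¹, inv_nonneg.2 hKpos.le, fun m Λ hΛ => ?_⟩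
  have hset : {s : ℕ → Step d | (∀ n, pos s n i ≤ 0) ∧ nMark i j s Λ < m} =
      MARKS_A i j m Λ := by
    ext s
    constructor
    · rintro ⟨h1, h2⟩
      exact ⟨h2, h1⟩
    · rintro ⟨h1, h2⟩
      exact ⟨h2, h1⟩
  rw [hset]
  have h1 : (Λ : ℝ≥0∞) * (K * ν (MARKS_A i j m Λ)) ≤ m := by
    refine le_trans ?_ (MARKS_sum h hij m Λ)
    have : (Λ : ℝ≥0∞) * (K * ν (MARKS_A i j m Λ)) =
        ∑ _μ ∈ Finset.range Λ, (K * ν (MARKS_A i j m Λ)) := by
      rw [Finset.sum_const, Finset.card_range, nsmul_eq_mul]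
    rw [this]
    exact Finset.sum_le_sum fun μ _ => MARKS_measure_UG h hij hhit m Λ μ
  have h2 := ENNReal.toReal_mono (ENNReal.natCast_ne_top m) h1
  rw [ENNReal.toReal_mul, ENNReal.toReal_mul, ENNReal.toReal_natCast,
    ENNReal.toReal_natCast] at h2
  have hΛ' : (0 : ℝ) < Λ := by exact_mod_cast hΛ
  rw [ENNReal.le_ofReal_iff_toReal_le (h.ne_top _) (by positivity)]
  rw [le_div_iff₀ hΛ', inv_mul_eq_div, le_div_iff₀ hKpos]
  calc (ν (MARKS_A i j m Λ)).toReal * Λ * K.toReal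
      = Λ * (K.toReal * (ν (MARKS_A i j m Λ)).toReal) := by ring
    _ ≤ m := h2

end Vale.Agent.Lib.P147G
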