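import Vale.Agent.Lib.P147.Flip
import Vale.Agent.Lib.P147G.AtomG
import Vale.Agent.Lib.P147G.Defs

/-! Module SPREADFIN. -/

open MeasureTheory
open scoped ENNReal

namespace Vale.Agent.Lib.P147G

open Vale.Agent.Lib.P147

variable {d : ℕ} {N : ℕ}

namespace SPF

/-- position after `k` steps -/
def P (f : Fin N → Step d) (k : ℕ) : Fin d → ℤ := ∑ t : Fin N, if t.val < k then vec (f t) else 0

lemma endp_take (f : Fin N → Step d) (k : ℕ) : endp ((List.ofFn f).take k) = P f k := by
  induction k with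
  | zero => simp [P, FLIP_endp_nil]
  | succ k ih =>
    by_cases hk : k < N
    · have hl : k < (List.ofFn f).length := by simpa using hk
      rw [List.take_succ_eq_append_getElem hl, FLIP_endp_append, ih]
      have h1 : endp [(List.ofFn f)[k]] = vec (f ⟨k, hk⟩) := by
        simp [FLIP_endp_cons, FLIP_endp_nil]
      rw [h1]
      have h2 : vec (f ⟨k, hk⟩) = ∑ t : Fin N, if t = ⟨k, hk⟩ then vec (f t) else 0 := by
        simp
      rw [h2, P, P, ← Finset.sum_add_distrib]
      refine Finset.sum_congr rfl fun t _ => ?_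
      by_cases h3 : t = ⟨k, hk⟩
      · subst h3; simp
      · have h4 : t.val ≠ k := fun h => h3 (Fin.ext h)
        by_cases h5 : t.val < k
        · simp [h3, h5, Nat.lt_succ_of_lt h5]
        · have h6 : ¬ t.val < k + 1 := by omega
          simp [h3, h5, h6]
    · have hN : N ≤ k := not_lt.1 hk
      have h1 : (List.ofFn f).take (k + 1) = (List.ofFn f).take k := by
        rw [List.take_of_length_le (by simp; omega), List.take_of_length_le (by simpa using hN)]
      rw [h1, ih, P, P]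
      refine Finset.sum_congr rfl fun t _ => ?_
      have h2 := t.isLt
      rw [if_pos (by omega), if_pos (by omega)]

/-- `t` is the time of a mark -/
def TM (i : Fin d) {qq : ℕ} (j : Fin qq → Fin d) (Λ : ℕ) (f : Fin N → Step d) (t : Fin N) : Prop :=
  -(Λ : ℤ) < P f t i ∧ (∀ k < t.val, P f t i < P f k i) ∧ (∃ a, (f t).1 = j a) ∧
    (∃ h : t.val + 1 < N, f ⟨t.val + 1, h⟩ = (i, false)) ∧
    ∀ k, t.val + 2 ≤ k → k ≤ N → P f k i < P f t i

/-- change the signs at the times in `S` -/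
def act (S : Finset (Fin N)) (σ : Fin N → Bool) (f : Fin N → Step d) (t : Fin N) : Step d :=
  if t ∈ S then ((f t).1, σ t) else f t

lemma act_fst (S : Finset (Fin N)) (σ : Fin N → Bool) (f : Fin N → Step d) (t : Fin N) :
    (act S σ f t).1 = (f t).1 := by
  unfold act; split_ifs <;> rfl

lemma act_P {i : Fin d} {qq : ℕ} {j : Fin qq → Fin d} (hij : ∀ a, j a ≠ i) {S : Finset (Fin N)}
    {f : Fin N → Step d} (hS : ∀ t ∈ S, ∃ a, (f t).1 = j a) (σ : Fin N → Bool) (k : ℕ) :
    P (act S σ f) k i = P f k i := by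
  simp only [P, Finset.sum_apply]
  refine Finset.sum_congr rfl fun t _ => ?_
  by_cases h1 : t.val < k
  · simp only [h1, if_true]
    by_cases h2 : t ∈ S
    · obtain ⟨a, ha⟩ := hS t h2
      have h3 : (f t) = (j a, (f t).2) := by rw [← ha]
      rw [act, if_pos h2, ha, FLIP_vec_ne i (j a) (hij a), h3, FLIP_vec_ne i (j a) (hij a)]
    · rw [act, if_neg h2]
  · simp only [h1, if_false]

lemma act_TM {i : Fin d} {qq : ℕ} {j : Fin qq → Fin d} (hij : ∀ a, j a ≠ i) (Λ : ℕ) {S : Finset (Fin N)}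
    {f : Fin N → Step d} (hS : ∀ t ∈ S, ∃ a, (f t).1 = j a) (σ : Fin N → Bool) (t : Fin N) :
    TM i j Λ (act S σ f) t ↔ TM i j Λ f t := by
  have hf : ∀ s : Fin N, (act S σ f s = (i, false)) ↔ (f s = (i, false)) := by
    intro s
    by_cases h2 : s ∈ S
    · obtain ⟨a, ha⟩ := hS s h2
      constructor
      · intro h
        exfalso
        apply hij a
        rw [← ha, ← act_fst S σ f s, h]
      · intro h
        exfalso
        apply hij a
        rw [← ha, h]
    · rw [act, if_neg h2]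
  simp only [TM, act_P hij hS, act_fst, hf]

/-- real weight of a step -/
noncomputable def r (ν : Measure (ℕ → Step d)) (e : Step d) : ℝ := (ν (cyl [e])).toReal

/-- real weight of a path -/
noncomputable def w (ν : Measure (ℕ → Step d)) (f : Fin N → Step d) : ℝ :=
  (ν (cyl (List.ofFn f))).toReal

lemma ofFn_update (f : Fin N → Step d) (t : Fin N) (v : Step d) :
    List.ofFn (Function.update f t v) = (List.ofFn f).set t.val v := by
  apply List.ext_getElem
  · simp
  · intro n h1 h2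
    simp only [List.getElem_ofFn, List.getElem_set, Function.update_apply, Fin.ext_iff]
    by_cases h : n = t.val
    · simp [h]
    · simp [h, Ne.symm h]

lemma flip_one {ν : Measure (ℕ → Step d)} (h : Law ν) {i : Fin d} {qq : ℕ} {j : Fin qq → Fin d}
    (hij : ∀ a, j a ≠ i) (Λ : ℕ) (f : Fin N → Step d) (t : Fin N) (ht : TM i j Λ f t) :
    ∃ K : ℝ, ∀ s : Bool, w ν (Function.update f t ((f t).1, s)) = K * r ν ((f t).1, s) := by
  obtain ⟨_, h2, ⟨a, ha⟩, ⟨h4, h5⟩, h6⟩ := ht
  have hlen : (List.ofFn f).length = N := List.length_ofFn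
  refine ⟨(ν (cyl ((List.ofFn f).take t.val))).toReal * (ν (cyl [(i, false)])).toReal *
    (ν (cyl ((List.ofFn f).drop (t.val + 2)))).toReal, fun s => ?_⟩
  have e1 : List.ofFn (Function.update f t ((f t).1, s)) =
      (List.ofFn f).take t.val ++ [(j a, s), (i, false)] ++ (List.ofFn f).drop (t.val + 2) := by
    rw [ofFn_update, List.set_eq_take_append_cons_drop, if_pos (by rw [hlen]; exact t.isLt), ha]
    have e2 : (List.ofFn f).drop (t.val + 1) = (i, false) :: (List.ofFn f).drop (t.val + 2) := by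
      rw [List.drop_eq_getElem_cons (by rw [hlen]; exact h4)]
      simp [h5]
    rw [e2]
    simp
  have e3 := flip_weight h i (j a) (hij a) ((List.ofFn f).take t.val)
    ((List.ofFn f).drop (t.val + 2)) (P f t i) (by rw [endp_take])
    (fun k hk => by
      have hk' : k < t.val := by
        rw [List.length_take] at hk
        omega
      rw [List.take_take, min_eq_left hk'.le, endp_take]
      exact h2 k hk')
    (fun k hk => by
      have hk' : t.val + 2 + k ≤ N := by
        rw [List.length_drop, hlen] at hk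
        omega
      have e4 : (List.ofFn f).take (t.val + 2 + k) =
          (List.ofFn f).take (t.val + 2) ++ ((List.ofFn f).drop (t.val + 2)).take k :=
        List.take_add
      have e5 : P f (t.val + 2 + k) = P f (t.val + 2) +
          endp (((List.ofFn f).drop (t.val + 2)).take k) := by
        rw [← endp_take, e4, FLIP_endp_append, endp_take]
      have e6 := h6 (t.val + 2 + k) (by omega) hk'
      have e7 : P f (t.val + 2) i = P f t.val i - 1 := by
        have f1 : (List.ofFn f).take (t.val + 2) =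
            (List.ofFn f).take t.val ++ [f t] ++ [(i, false)] := by
          rw [show t.val + 2 = t.val + 1 + 1 from rfl,
            List.take_succ_eq_append_getElem (by rw [hlen]; exact h4),
            List.take_succ_eq_append_getElem (by rw [hlen]; exact t.isLt)]
          simp [h5]
        have f2 : P f (t.val + 2) = P f t.val + vec (f t) + vec (i, false) := by
          rw [← endp_take, f1, FLIP_endp_append, FLIP_endp_append, endp_take]
          simp [FLIP_endp_cons, FLIP_endp_nil]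
        have f3 : vec (f t) i = 0 := by
          have : f t = (j a, (f t).2) := by rw [← ha]
          rw [this, FLIP_vec_ne i (j a) (hij a)]
        rw [f2, Pi.add_apply, Pi.add_apply, f3, FLIP_vec_self]
        simp
        ring
      have e8 := congrFun e5 i
      rw [Pi.add_apply, e7] at e8
      omega) s
  rw [w, e1, e3, r, ha]
  simp only [ENNReal.toReal_mul]
  ring

lemma law_fin {ν : Measure (ℕ → Step d)} (h : Law ν) (A : Set (ℕ → Step d)) : ν A ≠ ∞ := by
  have : ν A ≤ 1 := by rw [← h.prob]; exact measure_mono (Set.subset_univ _)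
  exact ne_top_of_le_ne_top ENNReal.one_ne_top this

lemma r_pos {ν : Measure (ℕ → Step d)} (h : Law ν) (e : Step d) : 0 < r ν e :=
  ENNReal.toReal_pos (h.pos e).ne' (law_fin h _)

lemma act_insert [DecidableEq (Fin N)] (S : Finset (Fin N)) (t : Fin N) (σ : Fin N → Bool)
    (f : Fin N → Step d) :
    act (insert t S) σ f = Function.update (act S σ f) t ((f t).1, σ t) := by
  funext s
  by_cases h : s = t
  · subst h; simp [act]
  · simp [act, Function.update_apply, h]

lemma flip_many {ν : Measure (ℕ → Step d)} (h : Law ν) {i : Fin d} {qq : ℕ} {j : Fin qq → Fin d}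
    (hij : ∀ a, j a ≠ i) (Λ : ℕ) (f : Fin N → Step d) (σ : Fin N → Bool) (S : Finset (Fin N))
    (hS : ∀ t ∈ S, TM i j Λ f t) :
    w ν (act S σ f) * ∏ t ∈ S, r ν (f t) = w ν f * ∏ t ∈ S, r ν ((f t).1, σ t) := by
  classical
  induction S using Finset.induction_on with
  | empty =>
    have : act ∅ σ f = f := by funext s; simp [act]
    simp [this]
  | insert t S ht ih =>
    have hS' : ∀ s ∈ S, TM i j Λ f s := fun s hs => hS s (Finset.mem_insert_of_mem hs)
    have ih' := ih hS'
    have hd : ∀ s ∈ S, ∃ a, (f s).1 = j a := fun s hs => (hS' s hs).2.2.1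
    have h1 : TM i j Λ (act S σ f) t :=
      (act_TM hij Λ hd σ t).2 (hS t (Finset.mem_insert_self t S))
    obtain ⟨K, hK⟩ := flip_one h hij Λ (act S σ f) t h1
    have h2 : act S σ f t = f t := by rw [act, if_neg ht]
    have h3 := hK (σ t)
    have h4 := hK (f t).2
    rw [h2] at h3 h4
    have h5 : Function.update (act S σ f) t ((f t).1, (f t).2) = act S σ f := by
      rw [Prod.mk.eta, ← h2, Function.update_eq_self]
    rw [h5] at h4
    rw [act_insert, h3, Finset.prod_insert ht, Finset.prod_insert ht]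
    rw [h4] at ih'
    have h6 : ((f t).1, (f t).2) = f t := rfl
    rw [h6] at ih'
    calc K * r ν ((f t).1, σ t) * (r ν (f t) * ∏ t ∈ S, r ν (f t))
        = r ν ((f t).1, σ t) * (K * r ν (f t) * ∏ t ∈ S, r ν (f t)) := by ring
      _ = _ := by rw [ih']; ring

/-- normalised sign weights -/
noncomputable def q (ν : Measure (ℕ → Step d)) (e : Step d) : ℝ :=
  r ν e / (r ν (e.1, true) + r ν (e.1, false))

lemma q_pos {ν : Measure (ℕ → Step d)} (h : Law ν) (e : Step d) : 0 < q ν e :=
  div_pos (r_pos h e) (add_pos (r_pos h _) (r_pos h _))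

lemma q_sum {ν : Measure (ℕ → Step d)} (h : Law ν) (x : Fin d) :
    q ν (x, true) + q ν (x, false) = 1 := by
  have h1 : 0 < r ν (x, true) + r ν (x, false) := add_pos (r_pos h _) (r_pos h _)
  simp only [q]
  rw [← add_div, div_self h1.ne']

lemma flip_q {ν : Measure (ℕ → Step d)} (h : Law ν) {i : Fin d} {qq : ℕ} {j : Fin qq → Fin d}
    (hij : ∀ a, j a ≠ i) (Λ : ℕ) (f : Fin N → Step d) (σ : Fin N → Bool) (S : Finset (Fin N))
    (hS : ∀ t ∈ S, TM i j Λ f t) :
    w ν (act S σ f) * ∏ t ∈ S, q ν (f t) = w ν f * ∏ t ∈ S, q ν ((f t).1, σ t) := by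
  simp only [q, Finset.prod_div_distrib]
  rw [← mul_div_assoc, flip_many h hij Λ f σ S hS, mul_div_assoc]

/-- sum over sign patterns; only the coordinates with `p` matter -/
lemma split_sum (p : Fin N → Prop) [DecidablePred p] (g : Fin N → Bool → ℝ)
    (hg : ∀ t, ¬ p t → g t true + g t false = 1) (X : ({t // p t} → Bool) → Prop)
    [DecidablePred X] :
    (∑ σ : Fin N → Bool, if X (fun t => σ t.1) then ∏ t, g t (σ t) else 0) =
      ∑ σ : {t // p t} → Bool, if X σ then ∏ t : {t // p t}, g t.1 (σ t) else 0 := by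
  rw [← (Equiv.piEquivPiSubtypeProd p (fun _ => Bool)).symm.sum_comp, Fintype.sum_prod_type]
  refine Finset.sum_congr rfl fun σ1 _ => ?_
  have h1 : ∀ σ2 : {t // ¬ p t} → Bool,
      (fun t : {t // p t} => (Equiv.piEquivPiSubtypeProd p (fun _ => Bool)).symm (σ1, σ2) t.1) =
        σ1 := by
    intro σ2
    funext t
    simp [Equiv.piEquivPiSubtypeProd, t.2]
  have h2 : ∀ σ2 : {t // ¬ p t} → Bool,
      ∏ t, g t ((Equiv.piEquivPiSubtypeProd p (fun _ => Bool)).symm (σ1, σ2) t) =
        (∏ t : {t // p t}, g t.1 (σ1 t)) * ∏ t : {t // ¬ p t}, g t.1 (σ2 t) := by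
    intro σ2
    rw [← Fintype.prod_subtype_mul_prod_subtype p]
    congr 1
    · refine Finset.prod_congr rfl fun t _ => ?_
      simp [Equiv.piEquivPiSubtypeProd, t.2]
    · refine Finset.prod_congr rfl fun t _ => ?_
      simp [Equiv.piEquivPiSubtypeProd, t.2]
  simp only [h1, h2]
  by_cases hX : X σ1
  · simp only [hX, if_true]
    rw [← Finset.mul_sum]
    have h3 : ∑ σ2 : {t // ¬ p t} → Bool, ∏ t : {t // ¬ p t}, g t.1 (σ2 t) = 1 := by
      have := Finset.prod_univ_sum (fun _ : {t // ¬ p t} => (Finset.univ : Finset Bool))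
        (fun t s => g t.1 s)
      rw [Fintype.piFinset_univ] at this
      rw [← this]
      refine Finset.prod_eq_one fun t _ => ?_
      rw [Fintype.sum_bool]
      exact hg t.1 t.2
    rw [h3, mul_one]
  · simp [hX]

lemma total_sum (g : Fin N → Bool → ℝ) (hg : ∀ t, g t true + g t false = 1) :
    ∑ σ : Fin N → Bool, ∏ t, g t (σ t) = 1 := by
  have := Finset.prod_univ_sum (fun _ : Fin N => (Finset.univ : Finset Bool)) g
  rw [Fintype.piFinset_univ] at this
  rw [← this]
  refine Finset.prod_eq_one fun t _ => ?_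
  rw [Fintype.sum_bool]
  exact hg t

open Classical in
/-- the set of mark times -/
noncomputable def ST (i : Fin d) {qq : ℕ} (j : Fin qq → Fin d) (Λ : ℕ) (f : Fin N → Step d) :
    Finset (Fin N) := Finset.univ.filter (TM i j Λ f)

lemma mem_ST {i : Fin d} {qq : ℕ} {j : Fin qq → Fin d} {Λ : ℕ} {f : Fin N → Step d} {t : Fin N} :
    t ∈ ST i j Λ f ↔ TM i j Λ f t := by simp [ST]

lemma ST_dir {i : Fin d} {qq : ℕ} {j : Fin qq → Fin d} {Λ : ℕ} {f : Fin N → Step d} :
    ∀ t ∈ ST i j Λ f, ∃ a, (f t).1 = j a := fun t ht => (mem_ST.1 ht).2.2.1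

lemma ST_act {i : Fin d} {qq : ℕ} {j : Fin qq → Fin d} (hij : ∀ a, j a ≠ i) (Λ : ℕ) (f : Fin N → Step d)
    (σ : Fin N → Bool) : ST i j Λ (act (ST i j Λ f) σ f) = ST i j Λ f := by
  ext t
  rw [mem_ST, mem_ST, act_TM hij Λ ST_dir]

open Classical in
/-- sign weights -/
noncomputable def rho (ν : Measure (ℕ → Step d)) (i : Fin d) {qq : ℕ} (j : Fin qq → Fin d) (Λ : ℕ)
    (f : Fin N → Step d) (t : Fin N) (s : Bool) : ℝ :=
  if t ∈ ST i j Λ f then q ν ((f t).1, s) else 1 / 2

lemma rho_sum {ν : Measure (ℕ → Step d)} (h : Law ν) (i : Fin d) {qq : ℕ} (j : Fin qq → Fin d) (Λ : ℕ)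
    (f : Fin N → Step d) (t : Fin N) : rho ν i j Λ f t true + rho ν i j Λ f t false = 1 := by
  unfold rho
  split_ifs
  · exact q_sum h _
  · norm_num

open Classical in
/-- the involution -/
noncomputable def Phi (i : Fin d) {qq : ℕ} (j : Fin qq → Fin d) (Λ : ℕ)
    (x : (Fin N → Step d) × (Fin N → Bool)) : (Fin N → Step d) × (Fin N → Bool) :=
  (act (ST i j Λ x.1) x.2 x.1, fun t => if t ∈ ST i j Λ x.1 then (x.1 t).2 else x.2 t)

lemma Phi_Phi {i : Fin d} {qq : ℕ} {j : Fin qq → Fin d} (hij : ∀ a, j a ≠ i) (Λ : ℕ)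
    (x : (Fin N → Step d) × (Fin N → Bool)) : Phi i j Λ (Phi i j Λ x) = x := by
  obtain ⟨f, σ⟩ := x
  simp only [Phi, ST_act hij]
  ext1
  · funext t
    simp only [act]
    by_cases ht : t ∈ ST i j Λ f
    · simp [ht]
    · simp [ht]
  · funext t
    by_cases ht : t ∈ ST i j Λ f
    · simp [ht, act]
    · simp [ht]

lemma Phi_weight {ν : Measure (ℕ → Step d)} (h : Law ν) {i : Fin d} {qq : ℕ} {j : Fin qq → Fin d}
    (hij : ∀ a, j a ≠ i) (Λ : ℕ) (f : Fin N → Step d) (σ : Fin N → Bool) :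
    w ν (Phi i j Λ (f, σ)).1 *
      ∏ t, rho ν i j Λ (Phi i j Λ (f, σ)).1 t ((Phi i j Λ (f, σ)).2 t) =
      w ν f * ∏ t, rho ν i j Λ f t (σ t) := by
  classical
  have e1 : ∏ t, rho ν i j Λ (Phi i j Λ (f, σ)).1 t ((Phi i j Λ (f, σ)).2 t) =
      (∏ t ∈ ST i j Λ f, q ν (f t)) * ∏ t ∈ (ST i j Λ f)ᶜ, (1 / 2 : ℝ) := by
    rw [← Finset.prod_mul_prod_compl (ST i j Λ f)]
    congr 1
    · refine Finset.prod_congr rfl fun t ht => ?_
      simp only [Phi, rho, ST_act hij, if_pos ht, act_fst]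
    · refine Finset.prod_congr rfl fun t ht => ?_
      rw [Finset.mem_compl] at ht
      simp only [Phi, rho, ST_act hij, if_neg ht]
  have e2 : ∏ t, rho ν i j Λ f t (σ t) =
      (∏ t ∈ ST i j Λ f, q ν ((f t).1, σ t)) * ∏ t ∈ (ST i j Λ f)ᶜ, (1 / 2 : ℝ) := by
    rw [← Finset.prod_mul_prod_compl (ST i j Λ f)]
    congr 1
    · refine Finset.prod_congr rfl fun t ht => ?_
      simp only [rho, if_pos ht]
    · refine Finset.prod_congr rfl fun t ht => ?_
      rw [Finset.mem_compl] at ht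
      simp only [rho, if_neg ht]
  rw [e1, e2, ← mul_assoc, ← mul_assoc]
  congr 1
  exact flip_q h hij Λ f σ _ fun t ht => mem_ST.1 ht

open Classical in
/-- resampling of the signs at the mark times -/
lemma resample {ν : Measure (ℕ → Step d)} (h : Law ν) {i : Fin d} {qq : ℕ} {j : Fin qq → Fin d}
    (hij : ∀ a, j a ≠ i) (Λ : ℕ) (C : (Fin N → Step d) → Prop) :
    (∑ f : Fin N → Step d, if C f then w ν f else 0) =
      ∑ f : Fin N → Step d, w ν f * ∑ σ : Fin N → Bool,
        if C (act (ST i j Λ f) σ f) then ∏ t, rho ν i j Λ f t (σ t) else 0 := by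
  let W : (Fin N → Step d) × (Fin N → Bool) → ℝ := fun x => w ν x.1 * ∏ t, rho ν i j Λ x.1 t (x.2 t)
  have h1 : (∑ f : Fin N → Step d, if C f then w ν f else 0) =
      ∑ x : (Fin N → Step d) × (Fin N → Bool), if C x.1 then W x else 0 := by
    rw [Fintype.sum_prod_type]
    refine Finset.sum_congr rfl fun f _ => ?_
    by_cases hC : C f
    · simp only [hC, if_true, W]
      rw [← Finset.mul_sum, total_sum _ (rho_sum h i j Λ f), mul_one]
    · simp [hC]
  have h2 : (∑ x : (Fin N → Step d) × (Fin N → Bool), if C x.1 then W x else 0) =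
      ∑ x : (Fin N → Step d) × (Fin N → Bool), if C (Phi i j Λ x).1 then W x else 0 := by
    let e : ((Fin N → Step d) × (Fin N → Bool)) ≃ ((Fin N → Step d) × (Fin N → Bool)) :=
      ⟨Phi i j Λ, Phi i j Λ, Phi_Phi hij Λ, Phi_Phi hij Λ⟩
    rw [← e.sum_comp]
    refine Finset.sum_congr rfl fun x _ => ?_
    have : W (Phi i j Λ x) = W x := Phi_weight h hij Λ x.1 x.2
    show (if C (Phi i j Λ x).1 then W (Phi i j Λ x) else 0) = _
    rw [this]
  rw [h1, h2, Fintype.sum_prod_type]
  refine Finset.sum_congr rfl fun f _ => ?_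
  rw [Finset.mul_sum]
  refine Finset.sum_congr rfl fun σ _ => ?_
  simp only [W, Phi]
  split_ifs <;> simp

open Classical in
/-- number of marks is at most the number of mark times -/
lemma nMarkH_le (i : Fin d) {qq : ℕ} (j : Fin qq → Fin d) (Λ : ℕ) (f : Fin N → Step d) (a : Fin qq) :
    nMarkH i (j a) (List.ofFn f) Λ ≤
      (Finset.univ.filter (fun t : Fin N => TM i j Λ f t ∧ (f t).1 = j a)).card := by
  have hlen : (List.ofFn f).length = N := List.length_ofFn
  have hsub : {μ : ℕ | μ < Λ ∧ MarkH i (j a) (List.ofFn f) μ} ⊆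
      (↑(Finset.image (fun t : Fin N => (-(P f t.val i)).toNat)
        (Finset.univ.filter (fun t : Fin N => TM i j Λ f t ∧ (f t).1 = j a))) : Set ℕ) := by
    rintro μ ⟨hμ, t, h1, h2, h3, ⟨σ, h4⟩, h5, h6⟩
    rw [hlen] at h1
    rw [endp_take] at h2
    have ht : t < N := by omega
    have ht1 : t + 1 < N := by omega
    rw [List.getElem?_ofFn, dif_pos ht] at h4
    rw [List.getElem?_ofFn, dif_pos ht1] at h5
    have h4' : f ⟨t, ht⟩ = (j a, σ) := by simpa using h4
    have h5' : f ⟨t + 1, ht1⟩ = (i, false) := by simpa using h5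
    rw [Finset.coe_image]
    refine ⟨⟨t, ht⟩, ?_, ?_⟩
    · rw [Finset.mem_coe, Finset.mem_filter]
      refine ⟨Finset.mem_univ _, ⟨?_, ?_, ⟨a, by rw [h4']⟩, ⟨ht1, h5'⟩, ?_⟩, by rw [h4']⟩
      · show -(Λ : ℤ) < P f t i
        omega
      · intro k hk
        have := h3 k hk
        rw [endp_take] at this
        show P f t i < P f k i
        omega
      · intro k hk hkN
        have := h6 k hk (by rw [hlen]; exact hkN)
        rw [endp_take] at this
        show P f k i < P f t i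
        omega
    · show (-(P f t i)).toNat = μ
      omega
  calc nMarkH i (j a) (List.ofFn f) Λ ≤ _ := Set.ncard_le_ncard hsub (Finset.finite_toSet _)
    _ = _ := Set.ncard_coe_finset _
    _ ≤ _ := Finset.card_image_le

/-- marks are made before a time at which the level is `≤ -Λ` -/
lemma TM_lt {i : Fin d} {qq : ℕ} {j : Fin qq → Fin d} {Λ : ℕ} {f : Fin N → Step d} {t : Fin N}
    (ht : TM i j Λ f t) {n : ℕ} (hn : P f n i ≤ -(Λ : ℤ)) : t.val < n := by
  by_contra hc
  rcases Nat.lt_or_eq_of_le (not_lt.1 hc) with h1 | h1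
  · have := ht.2.1 n h1
    have := ht.1
    omega
  · have := ht.1
    rw [← h1] at this
    omega

lemma act_coord {i : Fin d} {qq : ℕ} {j : Fin qq → Fin d} {Λ : ℕ} {f : Fin N → Step d}
    {n : ℕ} (hn : P f n i ≤ -(Λ : ℤ)) (σ : Fin N → Bool) (x : Fin d) :
    P (act (ST i j Λ f) σ f) n x =
      (∑ t ∈ (ST i j Λ f).filter (fun t => (f t).1 = x), (if σ t then (1 : ℤ) else -1)) +
        ∑ t ∈ (ST i j Λ f)ᶜ, (if t.val < n then vec (f t) x else 0) := by
  simp only [P, Finset.sum_apply]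
  rw [← Finset.sum_add_sum_compl (ST i j Λ f)]
  congr 1
  · rw [Finset.sum_filter]
    refine Finset.sum_congr rfl fun t ht => ?_
    have h1 : t.val < n := TM_lt (mem_ST.1 ht) hn
    rw [if_pos h1, act, if_pos ht]
    by_cases h2 : (f t).1 = x
    · subst h2
      rw [if_pos rfl]
      simp [vec]
    · rw [if_neg h2]
      simp [vec, Ne.symm h2]
  · refine Finset.sum_congr rfl fun t ht => ?_
    rw [Finset.mem_compl] at ht
    by_cases h1 : t.val < n
    · rw [if_pos h1, if_pos h1, act, if_neg ht]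
    · rw [if_neg h1, if_neg h1]; rfl

lemma rho_nonneg {ν : Measure (ℕ → Step d)} (h : Law ν) (i : Fin d) {qq : ℕ} (j : Fin qq → Fin d) (Λ : ℕ)
    (f : Fin N → Step d) (t : Fin N) (s : Bool) : 0 ≤ rho ν i j Λ f t s := by
  unfold rho
  split_ifs
  · exact (q_pos h _).le
  · norm_num

open Classical in
lemma sign_bound {ν : Measure (ℕ → Step d)} (h : Law ν) {i : Fin d} {qq : ℕ} {j : Fin qq → Fin d}
    (hj : Function.Injective j) {K : ℝ} {m : ℕ}
    (hK : ∀ (ι : Type) [Fintype ι] [DecidableEq ι] (dir : ι → Fin qq),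
      (∀ a, m ≤ (Finset.univ.filter (fun t => dir t = a)).card) → ∀ v : Fin qq → ℤ,
      (∑ σ : ι → Bool, if (∀ a, ∑ t ∈ Finset.univ.filter (fun t => dir t = a),
          (if σ t then (1 : ℤ) else -1) = v a) then ∏ t, q ν (j (dir t), σ t) else 0) ≤ K)
    {Λ n : ℕ} {u : Fin d → ℤ} (f : Fin N → Step d) (hn : P f n i ≤ -(Λ : ℤ))
    (hm : ∀ a, m ≤ (Finset.univ.filter (fun t : Fin N => TM i j Λ f t ∧ (f t).1 = j a)).card) :
    (∑ σ : Fin N → Bool, if P (act (ST i j Λ f) σ f) n = u then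
      ∏ t, rho ν i j Λ f t (σ t) else 0) ≤ K := by
  have hdir : ∀ t : {t // t ∈ ST i j Λ f}, ∃ a, (f t.1).1 = j a := fun t => ST_dir t.1 t.2
  choose dir hdir using hdir
  obtain ⟨v, hv⟩ : ∃ v : Fin qq → ℤ, v = fun a =>
    u (j a) - ∑ t ∈ (ST i j Λ f)ᶜ, (if t.val < n then vec (f t) (j a) else 0) := ⟨_, rfl⟩
  have hda : ∀ (t : {t // t ∈ ST i j Λ f}) (a : Fin qq), dir t = a ↔ (f t.1).1 = j a := by
    intro t a
    rw [hdir t]
    exact ⟨fun e => by rw [e], fun e => hj e⟩
  obtain ⟨X, hXdef⟩ : ∃ X : ({t // t ∈ ST i j Λ f} → Bool) → Prop, ∀ σ', X σ' ↔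
      ∀ a, ∑ t ∈ Finset.univ.filter (fun t => dir t = a), (if σ' t then (1 : ℤ) else -1) = v a :=
    ⟨_, fun _ => Iff.rfl⟩
  have h1 : (∑ σ : Fin N → Bool, if P (act (ST i j Λ f) σ f) n = u then
        ∏ t, rho ν i j Λ f t (σ t) else 0) ≤
      ∑ σ : Fin N → Bool, if X (fun t => σ t.1) then ∏ t, rho ν i j Λ f t (σ t) else 0 := by
    refine Finset.sum_le_sum fun σ _ => ?_
    have hpos : 0 ≤ ∏ t, rho ν i j Λ f t (σ t) :=
      Finset.prod_nonneg fun t _ => rho_nonneg h i j Λ f t _
    by_cases hP : P (act (ST i j Λ f) σ f) n = u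
    · have hX : ∀ a, ∑ t ∈ Finset.univ.filter (fun t : {t // t ∈ ST i j Λ f} => dir t = a),
          (if σ t.1 then (1 : ℤ) else -1) = v a := by
        intro a
        have h2 := congrFun hP (j a)
        rw [act_coord hn] at h2
        have h3 : ∑ t ∈ (ST i j Λ f).filter (fun t => (f t).1 = j a),
            (if σ t then (1 : ℤ) else -1) =
            ∑ t ∈ Finset.univ.filter (fun t : {t // t ∈ ST i j Λ f} => dir t = a),
              (if σ t.1 then (1 : ℤ) else -1) := by
          rw [Finset.sum_filter, Finset.sum_filter, ← Finset.sum_coe_sort (ST i j Λ f)]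
          refine Finset.sum_congr rfl fun t _ => ?_
          by_cases e : dir t = a
          · rw [if_pos e, if_pos ((hda t a).1 e)]
          · rw [if_neg e, if_neg (fun e' => e ((hda t a).2 e'))]
        rw [h3] at h2
        rw [hv]
        show _ = u (j a) - _
        rw [← h2]
        ring
      rw [if_pos hP, if_pos ((hXdef _).2 hX)]
    · rw [if_neg hP]
      split_ifs
      · exact hpos
      · exact le_rfl
  refine h1.trans ?_
  rw [split_sum (fun t => t ∈ ST i j Λ f) (rho ν i j Λ f) (fun t _ => rho_sum h i j Λ f t) X]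
  have h4 : ∀ σ : {t // t ∈ ST i j Λ f} → Bool,
      ∏ t : {t // t ∈ ST i j Λ f}, rho ν i j Λ f t.1 (σ t) = ∏ t, q ν (j (dir t), σ t) := by
    intro σ
    refine Finset.prod_congr rfl fun t _ => ?_
    rw [rho, if_pos t.2, hdir t]
  refine le_trans (le_of_eq (Finset.sum_congr (by ext; simp) fun σ _ => ?_))
    (hK _ dir (fun a => (hm a).trans ?_) v)
  · by_cases e : X σ
    · rw [if_pos e, if_pos ((hXdef σ).1 e), ← h4 σ]
      exact Finset.prod_congr (by ext; simp) fun t _ => rfl
    · rw [if_neg e, if_neg (fun e' => e ((hXdef σ).2 e'))]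
  have h5 : (Finset.univ.filter (fun t : Fin N => TM i j Λ f t ∧ (f t).1 = j a)) ⊆
      Finset.image Subtype.val
        (Finset.univ.filter (fun t : {t // t ∈ ST i j Λ f} => dir t = a)) := by
    intro t ht
    rw [Finset.mem_filter] at ht
    rw [Finset.mem_image]
    refine ⟨⟨t, mem_ST.2 ht.2.1⟩, ?_, rfl⟩
    rw [Finset.mem_filter]
    exact ⟨Finset.mem_univ _, (hda _ _).2 ht.2.2⟩
  exact (Finset.card_le_card h5).trans Finset.card_image_le

lemma DownPH_iff (i : Fin d) (ψ : ℕ → ℝ) (f : Fin N → Step d) :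
    DownPH i ψ (List.ofFn f) ↔ ∀ n ≤ N, P f n i ≤ 0 ∧ ψ n ≤ -(P f n i : ℝ) := by
  unfold DownPH
  rw [List.length_ofFn]
  simp only [endp_take]

lemma DownPH_act {i : Fin d} {qq : ℕ} {j : Fin qq → Fin d} (hij : ∀ a, j a ≠ i) (Λ : ℕ) (ψ : ℕ → ℝ)
    (f : Fin N → Step d) (σ : Fin N → Bool) :
    DownPH i ψ (List.ofFn (act (ST i j Λ f) σ f)) ↔ DownPH i ψ (List.ofFn f) := by
  rw [DownPH_iff, DownPH_iff]
  simp only [act_P hij ST_dir]

lemma card_act {i : Fin d} {qq : ℕ} {j : Fin qq → Fin d} (hij : ∀ a, j a ≠ i) (Λ : ℕ)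
    [∀ (f : Fin N → Step d) (a : Fin qq), DecidablePred (fun t : Fin N => TM i j Λ f t ∧ (f t).1 = j a)]
    (f : Fin N → Step d) (σ : Fin N → Bool) (a : Fin qq) :
    (Finset.univ.filter (fun t : Fin N => TM i j Λ (act (ST i j Λ f) σ f) t ∧
      (act (ST i j Λ f) σ f t).1 = j a)).card =
    (Finset.univ.filter (fun t : Fin N => TM i j Λ f t ∧ (f t).1 = j a)).card := by
  congr 1
  ext t
  simp only [Finset.mem_filter, act_TM hij Λ ST_dir, act_fst]

open Classical in
lemma spread_real {ν : Measure (ℕ → Step d)} (h : Law ν) {i : Fin d} {qq : ℕ} {j : Fin qq → Fin d}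
    (hij : ∀ a, j a ≠ i) (hj : Function.Injective j) {K : ℝ} {m : ℕ}
    (hK : ∀ (ι : Type) [Fintype ι] [DecidableEq ι] (dir : ι → Fin qq),
      (∀ a, m ≤ (Finset.univ.filter (fun t => dir t = a)).card) → ∀ v : Fin qq → ℤ,
      (∑ σ : ι → Bool, if (∀ a, ∑ t ∈ Finset.univ.filter (fun t => dir t = a),
          (if σ t then (1 : ℤ) else -1) = v a) then ∏ t, q ν (j (dir t), σ t) else 0) ≤ K)
    (hK0 : 0 ≤ K) (ψ : ℕ → ℝ) {Λ n : ℕ} {u : Fin d → ℤ} (hu : (Λ : ℤ) ≤ -u i) :
    (∑ f : Fin N → Step d, if DownPH i ψ (List.ofFn f) ∧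
        (∀ a, m ≤ nMarkH i (j a) (List.ofFn f) Λ) ∧ P f n = u then w ν f else 0) ≤
      K * ∑ f : Fin N → Step d, if DownPH i ψ (List.ofFn f) ∧ P f n i = u i then w ν f else 0 := by
  have hw : ∀ f : Fin N → Step d, 0 ≤ w ν f := fun f => ENNReal.toReal_nonneg
  obtain ⟨C, hCdef⟩ : ∃ C : (Fin N → Step d) → Prop, ∀ f, C f ↔ (DownPH i ψ (List.ofFn f) ∧
    (∀ a, m ≤ (Finset.univ.filter (fun t : Fin N => TM i j Λ f t ∧ (f t).1 = j a)).card) ∧
      P f n = u) := ⟨_, fun _ => Iff.rfl⟩
  have h1 : (∑ f : Fin N → Step d, if DownPH i ψ (List.ofFn f) ∧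
        (∀ a, m ≤ nMarkH i (j a) (List.ofFn f) Λ) ∧ P f n = u then w ν f else 0) ≤
      ∑ f : Fin N → Step d, if C f then w ν f else 0 := by
    refine Finset.sum_le_sum fun f _ => ?_
    by_cases hA : DownPH i ψ (List.ofFn f) ∧
        (∀ a, m ≤ nMarkH i (j a) (List.ofFn f) Λ) ∧ P f n = u
    · have hC : C f := (hCdef f).2 ⟨hA.1, fun a => (hA.2.1 a).trans (nMarkH_le i j Λ f a), hA.2.2⟩
      rw [if_pos hA, if_pos hC]
    · rw [if_neg hA]
      split_ifs
      · exact hw f
      · exact le_rfl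
  refine h1.trans ?_
  rw [resample h hij Λ C, Finset.mul_sum]
  refine Finset.sum_le_sum fun f _ => ?_
  have hrhs : 0 ≤ K * (if DownPH i ψ (List.ofFn f) ∧ P f n i = u i then w ν f else 0) := by
    split_ifs
    · exact mul_nonneg hK0 (hw f)
    · simp
  by_cases hA : DownPH i ψ (List.ofFn f) ∧ P f n i = u i
  · rw [if_pos hA]
    rw [mul_comm K]
    refine mul_le_mul_of_nonneg_left ?_ (hw f)
    by_cases hB : ∀ a, m ≤ (Finset.univ.filter
        (fun t : Fin N => TM i j Λ f t ∧ (f t).1 = j a)).card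
    · refine le_trans (Finset.sum_le_sum fun σ _ => ?_)
        (sign_bound h hj hK (Λ := Λ) (n := n) (u := u) f (by rw [hA.2]; omega) hB)
      have hpos : 0 ≤ ∏ t, rho ν i j Λ f t (σ t) :=
        Finset.prod_nonneg fun t _ => rho_nonneg h i j Λ f t _
      by_cases hC : C (act (ST i j Λ f) σ f)
      · rw [if_pos hC, if_pos ((hCdef _).1 hC).2.2]
      · rw [if_neg hC]
        split_ifs
        · exact hpos
        · exact le_rfl
    · refine le_trans (le_of_eq (Finset.sum_eq_zero fun σ _ => ?_)) hK0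
      rw [if_neg]
      intro hC
      apply hB
      intro a
      have := ((hCdef _).1 hC).2.1 a
      rwa [card_act hij Λ f σ a] at this
  · refine le_trans (le_of_eq ?_) hrhs
    rw [Finset.sum_eq_zero, mul_zero]
    intro σ _
    rw [if_neg]
    intro hC
    apply hA
    refine ⟨(DownPH_act hij Λ ψ f σ).1 ((hCdef _).1 hC).1, ?_⟩
    have := congrFun ((hCdef _).1 hC).2.2 i
    rwa [act_P hij ST_dir] at this

end SPF

open Classical in
theorem spread_finG {ν : Measure (ℕ → Step d)} (h : Law ν) (i : Fin d) {qq : ℕ} (j : Fin qq → Fin d)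
    (hij : ∀ a, j a ≠ i) (hj : Function.Injective j) :
    ∃ C : ℝ, 0 ≤ C ∧ ∀ (ψ : ℕ → ℝ) (N n m Λ : ℕ) (u : Fin d → ℤ), n ≤ N → 0 < m →
      (Λ : ℤ) ≤ -u i →
      (∑ f : Fin N → Step d, if DownPH i ψ (List.ofFn f) ∧
          (∀ a, m ≤ nMarkH i (j a) (List.ofFn f) Λ) ∧ endp ((List.ofFn f).take n) = u
          then ν (cyl (List.ofFn f)) else 0)
      ≤ ENNReal.ofReal (C / (Real.sqrt m) ^ qq) *
        (∑ f : Fin N → Step d, if DownPH i ψ (List.ofFn f) ∧
          endp ((List.ofFn f).take n) i = u i then ν (cyl (List.ofFn f)) else 0) := by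
  obtain ⟨C, hC0, hC⟩ := atomG (fun a s => SPF.q ν (j a, s)) (fun a s => SPF.q_pos h _)
    (fun a => SPF.q_sum h _)
  refine ⟨C, hC0, ?_⟩
  intro ψ N n m Λ u hn hm hu
  have hK0 : 0 ≤ C / (Real.sqrt m) ^ qq := div_nonneg hC0 (by positivity)
  have key := SPF.spread_real (N := N) h hij hj (K := C / (Real.sqrt m) ^ qq) (m := m)
    (fun ι _ _ dir hd v => hC ι dir m hm hd v) hK0 ψ (n := n) hu
  simp only [SPF.endp_take]
  refine le_trans (le_of_eq ?_) (le_trans (ENNReal.ofReal_le_ofReal key) (le_of_eq ?_))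
  · rw [ENNReal.ofReal_sum_of_nonneg]
    · refine Finset.sum_congr rfl fun f _ => ?_
      split_ifs
      · rw [SPF.w, ENNReal.ofReal_toReal (SPF.law_fin h _)]
      · simp
    · intro f _
      split_ifs
      · exact ENNReal.toReal_nonneg
      · exact le_rfl
  · rw [ENNReal.ofReal_mul hK0, ENNReal.ofReal_sum_of_nonneg]
    · congr 1
      refine Finset.sum_congr rfl fun f _ => ?_
      split_ifs
      · rw [SPF.w, ENNReal.ofReal_toReal (SPF.law_fin h _)]
      · simp
    · intro f _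
      split_ifs
      · exact ENNReal.toReal_nonneg
      · exact le_rfl

end Vale.Agent.Lib.P147G
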