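import Vale.Agent.Lib.P147.Start
import Vale.Agent.Lib.P147G.Defs

/-! P147, second version: positive probability of uniform polynomial escape, and good walks. -/

open MeasureTheory ProbabilityTheory Filter
open scoped ENNReal

namespace Vale.Agent.Lib.P147G

open Vale.Agent.Lib.P147

variable {d : ℕ}

/-- `DownP` is a closed event -/
def DownPQ (i : Fin d) (ψ : ℕ → ℝ) (m : List (Step d)) : Prop :=
  endp m i ≤ 0 ∧ ψ m.length ≤ -(endp m i : ℝ)

theorem DownP_eq (i : Fin d) (ψ : ℕ → ℝ) : DownP i ψ = Ev (DownPQ i ψ) := by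
  ext s
  simp only [DownP, Ev, DownPQ, pos, pre_length]

theorem start_downG {ν : Measure (ℕ → Step d)} (h : Law ν) (i : Fin d) {β : ℝ} (hβ : 0 < β)
    (hβ1 : β ≤ 1)
    (hA : 0 < ν {s | ∀ᶠ n : ℕ in atTop, (pos s n i : ℝ) ≤ -((n : ℝ) ^ β)}) :
    ∃ b : ℝ, 0 ≤ b ∧ 0 < ν (DownP i (fun n => 1 * (n : ℝ) ^ β - b)) := by
  by_contra hcon
  push Not at hcon
  have hsub : {s : ℕ → Step d | ∀ᶠ n : ℕ in atTop, (pos s n i : ℝ) ≤ -((n : ℝ) ^ β)} ⊆
      ⋃ M : ℕ, ⋃ γ : List (Step d),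
        cyl γ ∩ shift γ.length ⁻¹' (DownP i (fun n => 1 * (n : ℝ) ^ β - M)) := by
    intro s hev
    obtain ⟨M, hM⟩ := eventually_atTop.1 hev
    -- a time of maximal level
    obtain ⟨t, ht⟩ : ∃ t, ∀ n, pos s n i ≤ pos s t i := by
      obtain ⟨t, -, ht⟩ := Finset.exists_max_image (Finset.range (M + 1)) (fun n => pos s n i)
        ⟨0, by simp⟩
      refine ⟨t, fun n => ?_⟩
      rcases le_or_gt n M with hn | hn
      · exact ht n (Finset.mem_range.2 (by omega))
      · have h1 := hM n hn.le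
        have h2 : pos s n i ≤ 0 := by
          have : (pos s n i : ℝ) ≤ 0 := h1.trans (by
            have : 0 ≤ (n : ℝ) ^ β := by positivity
            linarith)
          exact_mod_cast this
        have h3 := ht 0 (by simp)
        simp only [pos_zero, Pi.zero_apply] at h3
        linarith
    obtain ⟨M', hM'⟩ := exists_nat_gt ((M : ℝ) + 1 + |(pos s t i : ℝ)|)
    refine Set.mem_iUnion.2 ⟨M', Set.mem_iUnion.2 ⟨pre s t, pre_mem_cyl s t, ?_⟩⟩
    rw [Set.mem_preimage, pre_length]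
    intro n
    have hadd : pos s (t + n) i = pos s t i + pos (shift t s) n i := by
      rw [pos_add, Pi.add_apply]
    have hle : pos (shift t s) n i ≤ 0 := by linarith [ht (t + n)]
    refine ⟨hle, ?_⟩
    have habs := le_abs_self (pos s t i : ℝ)
    have habs3 := neg_abs_le (pos s t i : ℝ)
    have habs2 := abs_nonneg (pos s t i : ℝ)
    rcases le_total M (t + n) with hn | hn
    · have h1 := hM (t + n) hn
      rw [hadd] at h1
      push_cast at h1
      have h2 : (n : ℝ) ^ β ≤ ((t : ℝ) + n) ^ β :=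
        Real.rpow_le_rpow (by positivity) (by linarith [(Nat.cast_nonneg t : (0:ℝ) ≤ t)]) hβ.le
      have h4 : (0 : ℝ) ≤ M := by positivity
      linarith
    · have h1 : (n : ℝ) ≤ M := by
        have : n ≤ M := by omega
        exact_mod_cast this
      have h2 : (pos (shift t s) n i : ℝ) ≤ 0 := by exact_mod_cast hle
      have h3 : (n : ℝ) ^ β ≤ (M : ℝ) + 1 := by
        have h5 : (n : ℝ) ^ β ≤ ((M : ℝ) + 1) ^ β :=
          Real.rpow_le_rpow (by positivity) (by linarith) hβ.le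
        have h6 : ((M : ℝ) + 1) ^ β ≤ ((M : ℝ) + 1) ^ (1 : ℝ) :=
          Real.rpow_le_rpow_of_exponent_le (by linarith [(Nat.cast_nonneg M : (0:ℝ) ≤ M)]) hβ1
        rw [Real.rpow_one] at h6
        linarith
      linarith
  have hzero : ν (⋃ M : ℕ, ⋃ γ : List (Step d),
        cyl γ ∩ shift γ.length ⁻¹' (DownP i (fun n => 1 * (n : ℝ) ^ β - M))) = 0 := by
    rw [measure_iUnion_null_iff]
    intro M
    rw [measure_iUnion_null_iff]
    intro γ
    have h1 := hcon M (by positivity)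
    rw [DownP_eq] at h1 ⊢
    exact le_antisymm ((ext_le h γ _).trans h1) zero_le
  exact absurd (measure_mono_null hsub hzero) hA.ne'

/-- a walk in `DownP` with `ψ → ∞` visits every level -/
theorem DownP_hit {i : Fin d} {ψ : ℕ → ℝ} (hψ : Tendsto ψ atTop atTop) {s : ℕ → Step d}
    (hs : s ∈ DownP i ψ) (μ : ℕ) : ∃ t, pos s t i = -(μ : ℤ) := by
  classical
  have hex : ∃ n, pos s n i ≤ -(μ : ℤ) := by
    obtain ⟨n, hn⟩ := (hψ.eventually_ge_atTop (μ : ℝ)).exists
    refine ⟨n, ?_⟩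
    have h1 := (hs n).2
    have : ((pos s n i : ℤ) : ℝ) ≤ ((-(μ : ℤ) : ℤ) : ℝ) := by push_cast; linarith
    exact_mod_cast this
  refine ⟨Nat.find hex, le_antisymm (Nat.find_spec hex) ?_⟩
  rcases h : Nat.find hex with _ | m
  · simp
  · have h2 := Nat.find_min hex (show m < Nat.find hex by omega)
    rw [pos_succ, Pi.add_apply]
    have h4 := neg_one_le_vec (s m) i
    push Not at h2
    linarith

theorem goodG_of {ν : Measure (ℕ → Step d)} (h : Law ν) (i : Fin d) {q : ℕ} (j : Fin q → Fin d)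
    (ψ : ℕ → ℝ) (p : ℕ) (hD : 0 < ν (DownP i ψ))
    (hmarks : ∀ a, ∃ C : ℝ, 0 ≤ C ∧ ∀ m Λ : ℕ, 0 < Λ →
      ν {s | (∀ n, pos s n i ≤ 0) ∧ nMark i (j a) s Λ < m} ≤ ENNReal.ofReal (C * m / Λ)) :
    ∃ l₀ : ℕ, 0 < ν (GoodG i j ψ p l₀) := by
  choose C hC0 hC using hmarks
  have hfin := h.ne_top (DownP i ψ)
  set P : ℝ := (ν (DownP i ψ)).toReal with hp
  have hp0 : 0 < P := ENNReal.toReal_pos hD.ne' hfin
  set K : ℝ := ∑ a, C a with hK
  have hK0 : 0 ≤ K := Finset.sum_nonneg fun a _ => hC0 a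
  -- choose l₀
  obtain ⟨l₀, hl₀⟩ : ∃ l₀ : ℕ, 2 * K * (1 / 2 : ℝ) ^ l₀ < P := by
    rcases hK0.eq_or_lt with h0 | h0
    · exact ⟨0, by rw [← h0]; simpa using hp0⟩
    · obtain ⟨n, hn⟩ := exists_pow_lt_of_lt_one (show 0 < P / (2 * K) by positivity)
        (show (1 / 2 : ℝ) < 1 by norm_num)
      refine ⟨n, ?_⟩
      rw [lt_div_iff₀ (by positivity)] at hn
      linarith
  refine ⟨l₀, ?_⟩
  by_contra hcon
  have hzero : ν (GoodG i j ψ p l₀) = 0 := le_antisymm (not_lt.1 hcon) zero_le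
  have hsub : DownP i ψ ⊆ GoodG i j ψ p l₀ ∪ ⋃ k : ℕ, ⋃ a : Fin q,
      {s | (∀ n, pos s n i ≤ 0) ∧ nMark i (j a) s (2 ^ ((p + 1) * (l₀ + k))) <
        2 ^ (p * (l₀ + k))} := by
    intro s hs
    by_cases hg : s ∈ GoodG i j ψ p l₀
    · exact Or.inl hg
    · right
      have : ¬ ∀ l, l₀ ≤ l → ∀ a, 2 ^ (p * l) ≤ nMark i (j a) s (2 ^ ((p + 1) * l)) :=
        fun hall => hg ⟨hs, hall⟩
      push Not at this
      obtain ⟨l, hl, a, hla⟩ := this
      obtain ⟨k, rfl⟩ := Nat.exists_eq_add_of_le hl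
      exact Set.mem_iUnion.2 ⟨k, Set.mem_iUnion.2 ⟨a, fun n => (hs n).1, hla⟩⟩
  have hbound : ν (DownP i ψ) ≤ ∑' k : ℕ, ENNReal.ofReal (K * (1 / 2 : ℝ) ^ l₀ * (1 / 2 : ℝ) ^ k) := by
    calc ν (DownP i ψ) ≤ ν (GoodG i j ψ p l₀) + ν (⋃ k : ℕ, ⋃ a : Fin q,
      {s | (∀ n, pos s n i ≤ 0) ∧ nMark i (j a) s (2 ^ ((p + 1) * (l₀ + k))) <
        2 ^ (p * (l₀ + k))}) :=
          (measure_mono hsub).trans (measure_union_le _ _)
      _ = ν (⋃ k : ℕ, ⋃ a : Fin q,
      {s | (∀ n, pos s n i ≤ 0) ∧ nMark i (j a) s (2 ^ ((p + 1) * (l₀ + k))) <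
        2 ^ (p * (l₀ + k))}) := by
          rw [hzero, zero_add]
      _ ≤ ∑' k : ℕ, ν (⋃ a : Fin q,
      {s | (∀ n, pos s n i ≤ 0) ∧ nMark i (j a) s (2 ^ ((p + 1) * (l₀ + k))) <
        2 ^ (p * (l₀ + k))}) :=
          measure_iUnion_le _
      _ ≤ ∑' k : ℕ, ENNReal.ofReal (K * (1 / 2 : ℝ) ^ l₀ * (1 / 2 : ℝ) ^ k) := by
          refine ENNReal.tsum_le_tsum fun k => ?_
          calc ν (⋃ a : Fin q,
            {s | (∀ n, pos s n i ≤ 0) ∧ nMark i (j a) s (2 ^ ((p + 1) * (l₀ + k))) <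
              2 ^ (p * (l₀ + k))})
              ≤ ∑ a : Fin q, ν (
              {s | (∀ n, pos s n i ≤ 0) ∧ nMark i (j a) s (2 ^ ((p + 1) * (l₀ + k))) <
                2 ^ (p * (l₀ + k))}) :=
                measure_iUnion_fintype_le _ _
            _ ≤ ∑ a : Fin q, ENNReal.ofReal (C a * ((2 ^ (p * (l₀ + k)) : ℕ) : ℝ) /
                  ((2 ^ ((p + 1) * (l₀ + k)) : ℕ) : ℝ)) :=
                Finset.sum_le_sum fun a _ => hC a _ _ (by positivity)
            _ = ENNReal.ofReal (K * (1 / 2 : ℝ) ^ l₀ * (1 / 2 : ℝ) ^ k) := by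
                rw [← ENNReal.ofReal_sum_of_nonneg]
                · congr 1
                  rw [hK, Finset.sum_mul, Finset.sum_mul]
                  refine Finset.sum_congr rfl fun a _ => ?_
                  rw [mul_assoc, ← pow_add, mul_div_assoc]
                  congr 1
                  push_cast
                  rw [show (p + 1) * (l₀ + k) = p * (l₀ + k) + (l₀ + k) by ring, pow_add,
                    one_div, inv_pow]
                  have h2 : (2 : ℝ) ^ (p * (l₀ + k)) ≠ 0 := by positivity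
                  field_simp
                · intro a _
                  have := hC0 a
                  positivity
  have hsum : ∑' k : ℕ, ENNReal.ofReal (K * (1 / 2 : ℝ) ^ l₀ * (1 / 2 : ℝ) ^ k) =
      ENNReal.ofReal (2 * K * (1 / 2 : ℝ) ^ l₀) := by
    rw [← ENNReal.ofReal_tsum_of_nonneg]
    · congr 1
      rw [tsum_mul_left, tsum_geometric_of_lt_one (by norm_num) (by norm_num)]
      ring
    · intro k
      positivity
    · exact (summable_geometric_of_lt_one (by norm_num) (by norm_num)).mul_left _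
  rw [hsum] at hbound
  have h3 := ENNReal.toReal_mono ENNReal.ofReal_ne_top hbound
  rw [ENNReal.toReal_ofReal (by positivity)] at h3
  linarith

end Vale.Agent.Lib.P147G
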