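import Vale.Agent.Lib.P147.Spread
import Vale.Agent.Lib.P147G.StartG
import Vale.Agent.Lib.P147G.SpreadFinG

/-! P147, second version: spreading of the down-walks (limit `N → ∞` of the finite
horizon estimate). -/

open MeasureTheory ProbabilityTheory Filter
open scoped ENNReal

namespace Vale.Agent.Lib.P147G

open Vale.Agent.Lib.P147

variable {d : ℕ}

/-- the limit event of the right-hand side is closed -/
def SPREADG_Q (i : Fin d) (ψ : ℕ → ℝ) (n : ℕ) (u : ℤ) (m : List (Step d)) : Prop :=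
  DownPQ i ψ m ∧ (m.length = n → endp m i = u)

theorem SPREADG_Ev (i : Fin d) (ψ : ℕ → ℝ) (n : ℕ) (u : ℤ) :
    {s | s ∈ DownP i ψ ∧ pos s n i = u} = Ev (SPREADG_Q i ψ n u) := by
  ext s
  constructor
  · rintro ⟨h1, h2⟩ k
    refine ⟨?_, fun hk => ?_⟩
    · rw [DownP_eq] at h1
      exact h1 k
    · rw [pre_length] at hk
      rw [hk]; exact h2
  · intro hs
    refine ⟨?_, ?_⟩
    · rw [DownP_eq]
      exact fun k => (hs k).1
    · exact (hs n).2 (pre_length s n)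

theorem SPREADG_EvN (i : Fin d) (ψ : ℕ → ℝ) (n : ℕ) (u : ℤ) {N : ℕ} (hN : n ≤ N) :
    {s | DownPH i ψ (pre s N) ∧ endp ((pre s N).take n) i = u} = EvN (SPREADG_Q i ψ n u) N := by
  ext s
  constructor
  · rintro ⟨h1, h2⟩ k hk
    have h1k := h1 k (by rw [pre_length]; exact hk)
    rw [pre_take s hk] at h1k
    rw [pre_take s hN] at h2
    refine ⟨⟨h1k.1, ?_⟩, fun hkn => ?_⟩
    · rw [pre_length]; exact h1k.2
    · rw [pre_length] at hkn
      rw [hkn]; exact h2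
  · intro hs
    refine ⟨fun k hk => ?_, ?_⟩
    · rw [pre_length] at hk
      rw [pre_take s hk]
      have := (hs k hk).1
      rw [DownPQ, pre_length] at this
      exact this
    · rw [pre_take s hN]
      exact (hs n hN).2 (pre_length s n)

theorem spread_ofG {ν : Measure (ℕ → Step d)} (h : Law ν) (i : Fin d) {q : ℕ} (j : Fin q → Fin d)
    {ψ : ℕ → ℝ} {n m Λ : ℕ} {u : Fin d → ℤ} {K : ℝ≥0∞} (hK : K ≠ ⊤)
    (hfin : ∀ N, n ≤ N →
      ν {s | DownPH i ψ (pre s N) ∧ (∀ a, m ≤ nMarkH i (j a) (pre s N) Λ) ∧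
        endp ((pre s N).take n) = u} ≤
      K * ν {s | DownPH i ψ (pre s N) ∧ endp ((pre s N).take n) i = u i}) :
    ν {s | s ∈ DownP i ψ ∧ (∀ a, m ≤ nMark i (j a) s Λ) ∧ pos s n = u} ≤
      K * ν {s | s ∈ DownP i ψ ∧ pos s n i = u i} := by
  set S : Set (ℕ → Step d) :=
    {s | s ∈ DownP i ψ ∧ (∀ a, m ≤ nMark i (j a) s Λ) ∧ pos s n = u} with hS
  set A : ℕ → Set (ℕ → Step d) := fun N =>
    {s | DownPH i ψ (pre s N) ∧ (∀ a, m ≤ nMarkH i (j a) (pre s N) Λ) ∧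
        endp ((pre s N).take n) = u} with hA
  set B : ℕ → Set (ℕ → Step d) := fun N => {s | ∀ N' ≥ N, s ∈ A N'} with hB
  have hBmono : Monotone B := fun a b hab s hs N' hN' => hs N' (hab.trans hN')
  have hsub : S ⊆ ⋃ N, B N := by
    rintro s ⟨h1, h2, h3⟩
    choose T hT using fun a => SPREAD_nMarkH i (j a) s Λ
    refine Set.mem_iUnion.2 ⟨max n (Finset.univ.sup T), fun N' hN' => ⟨?_, fun a => ?_, ?_⟩⟩
    · intro k hk
      rw [pre_length] at hk
      rw [pre_take s hk]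
      exact h1 k
    · refine (h2 a).trans (hT a N' ?_)
      exact (Finset.le_sup (Finset.mem_univ a)).trans ((le_max_right _ _).trans hN')
    · rw [pre_take s ((le_max_left _ _).trans hN')]
      exact h3
  have hBle : ∀ N, ν (B N) ≤ K * ν (Ev (SPREADG_Q i ψ n (u i))) := by
    intro N
    have htend := ENNReal.Tendsto.const_mul (a := K) (tendsto_EvN h (SPREADG_Q i ψ n (u i)))
      (Or.inr hK)
    refine ge_of_tendsto htend ?_
    filter_upwards [eventually_ge_atTop (max n N)] with N' hN'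
    have hn : n ≤ N' := (le_max_left _ _).trans hN'
    have hBA : B N ⊆ A N' := fun s hs => hs N' ((le_max_right _ _).trans hN')
    refine (measure_mono hBA).trans ((hfin N' hn).trans ?_)
    rw [SPREADG_EvN i ψ n (u i) hn]
  calc ν S ≤ ν (⋃ N, B N) := measure_mono hsub
    _ = ⨆ N, ν (B N) := hBmono.measure_iUnion
    _ ≤ K * ν (Ev (SPREADG_Q i ψ n (u i))) := iSup_le hBle
    _ = _ := by rw [SPREADG_Ev]

open Classical in
/-- the finite horizon estimate `spread_fin` gives the estimate for infinite walks -/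
theorem spread_of_finG {ν : Measure (ℕ → Step d)} (h : Law ν) (i : Fin d) {q : ℕ} (j : Fin q → Fin d)
    (hfin : ∃ C : ℝ, 0 ≤ C ∧ ∀ (ψ : ℕ → ℝ) (N n m Λ : ℕ) (u : Fin d → ℤ), n ≤ N → 0 < m →
      (Λ : ℤ) ≤ -u i →
      (∑ f : Fin N → Step d, if DownPH i ψ (List.ofFn f) ∧
          (∀ a, m ≤ nMarkH i (j a) (List.ofFn f) Λ) ∧ endp ((List.ofFn f).take n) = u
          then ν (cyl (List.ofFn f)) else 0)
      ≤ ENNReal.ofReal (C / (Real.sqrt m) ^ q) *
        (∑ f : Fin N → Step d, if DownPH i ψ (List.ofFn f) ∧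
          endp ((List.ofFn f).take n) i = u i then ν (cyl (List.ofFn f)) else 0)) :
    ∃ C : ℝ, 0 ≤ C ∧ ∀ (ψ : ℕ → ℝ) (n m Λ : ℕ) (u : Fin d → ℤ), 0 < m →
      (Λ : ℤ) ≤ -u i →
      ν {s | s ∈ DownP i ψ ∧ (∀ a, m ≤ nMark i (j a) s Λ) ∧ pos s n = u} ≤
        ENNReal.ofReal (C / (Real.sqrt m) ^ q) *
          ν {s | s ∈ DownP i ψ ∧ pos s n i = u i} := by
  obtain ⟨C, hC, hbound⟩ := hfin
  refine ⟨C, hC, fun ψ n m Λ u hm hΛ => ?_⟩
  refine spread_ofG h i j ENNReal.ofReal_ne_top fun N hN => ?_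
  have h1 := SPREAD_measure ν (fun l => DownPH i ψ l ∧ (∀ a, m ≤ nMarkH i (j a) l Λ) ∧
    endp (l.take n) = u) N
  have h2 := SPREAD_measure ν (fun l => DownPH i ψ l ∧ endp (l.take n) i = u i) N
  rw [h1, h2]
  convert hbound ψ N n m Λ u hN hm hΛ


theorem spreadG {ν : Measure (ℕ → Step d)} (h : Law ν) (i : Fin d) {q : ℕ} (j : Fin q → Fin d)
    (hij : ∀ a, j a ≠ i) (hj : Function.Injective j) :
    ∃ C : ℝ, 0 ≤ C ∧ SpreadG ν i j C :=
  spread_of_finG h i j (spread_finG h i j hij hj)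

end Vale.Agent.Lib.P147G
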