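import Vale.Agent.Lib.P147.Start
import Vale.Agent.Lib.P147.Lat
import Vale.Agent.Lib.P147.Coll
import Vale.Agent.Lib.P147G.StartG
import Vale.Agent.Lib.P147G.MarksG
import Vale.Agent.Lib.P147G.GreenG
import Vale.Agent.Lib.P147G.SpreadG

/-! P147, second version: ballistic in one direction, polynomial in the opposite one. -/

open MeasureTheory ProbabilityTheory Filter
open scoped ENNReal

namespace Vale.Agent.Lib.P147G

open Vale.Agent.Lib.P147

variable {d : ℕ}

theorem boxG_lat {i : Fin d} {q : ℕ} {j : Fin q → Fin d} (hij : ∀ a, j a ≠ i) (R : ℕ) :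
    ∀ z ∈ BoxG j R, z i = 0 := by
  intro z hz
  simp only [BoxG, Finset.mem_image] at hz
  obtain ⟨w, -, rfl⟩ := hz
  rw [Finset.sum_apply]
  refine Finset.sum_eq_zero fun a _ => ?_
  simp [(hij a).symm]

theorem boxG_cardEq {q : ℕ} {j : Fin q → Fin d} (hj : Function.Injective j) (R : ℕ) :
    (BoxG j R).card = R ^ q := by
  rw [BoxG, Finset.card_image_of_injective]
  · simp
  · intro z w h
    funext a
    have h1 := congrFun h (j a)
    simp only [Finset.sum_apply, Pi.single_apply] at h1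
    have key : ∀ z : Fin q → ℕ, (∑ x : Fin q, if j a = j x then ((z x : ℕ) : ℤ) else 0) = z a := by
      intro z
      rw [Finset.sum_eq_single a]
      · simp
      · intro b _ hb
        rw [if_neg]
        intro hh
        exact hb (hj hh).symm
      · simp
    rw [key, key] at h1
    exact_mod_cast h1

theorem psi_tendsto {β : ℝ} (hβ : 0 < β) (b : ℝ) :
    Tendsto (fun n : ℕ => 1 * (n : ℝ) ^ β - b) atTop atTop := by
  have h1 : Tendsto (fun n : ℕ => (n : ℝ) ^ β) atTop atTop :=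
    (tendsto_rpow_atTop hβ).comp tendsto_natCast_atTop_atTop
  simp only [one_mul]
  exact tendsto_atTop_add_const_right _ (-b) h1

open Classical in
theorem mainG {ν : Measure (ℕ → Step d)} (h : Law ν) (i : Fin d) {q : ℕ} (j : Fin q → Fin d)
    (hij : ∀ a, j a ≠ i) (hj : Function.Injective j) {β : ℝ} (hβ : 0 < β) (hβ1 : β ≤ 1)
    (hβq : 2 < β * q)
    (h1 : 0 < ν {s | ∃ c : ℝ, 0 < c ∧ ∀ᶠ n : ℕ in atTop, c * n ≤ (pos s n i : ℝ)})
    (h2 : 0 < ν {s | ∀ᶠ n : ℕ in atTop, (pos s n i : ℝ) ≤ -((n : ℝ) ^ β)}) :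
    False := by
  obtain ⟨c, b, hc, hb, hU⟩ := start_up h i h1
  obtain ⟨b', hb', hD⟩ := start_downG h i hβ hβ1 h2
  obtain ⟨p, hp⟩ : ∃ p : ℕ, 2 * ((p : ℝ) + 1) < β * (p * q) := by
    obtain ⟨p, hp⟩ := exists_nat_gt (2 / (β * q - 2))
    refine ⟨p, ?_⟩
    rw [div_lt_iff₀ (by linarith)] at hp
    nlinarith
  have hhit : ∀ μ : ℕ, ν (DownP i (fun n => 1 * (n : ℝ) ^ β - b')) ≤
      ν {s | ∃ t, pos s t i = -(μ : ℤ)} := fun μ =>
    measure_mono fun s hs => DownP_hit (psi_tendsto hβ b') hs μ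
  obtain ⟨l₀, hG⟩ := goodG_of h i j _ p hD (fun a => marksG h i (j a) (hij a) hD hhit)
  have hfin : ∀ S : Set (ℕ → Step d), ν S ≠ ⊤ := fun S =>
    ne_top_of_le_ne_top (by rw [h.prob]; exact ENNReal.one_ne_top) (measure_mono (Set.subset_univ S))
  set GY := GoodG i j (fun n => 1 * (n : ℝ) ^ β - b') p l₀ with hGYdef
  -- real numbers
  set pY : ℝ := (ν GY).toReal with hpY
  set pX : ℝ := (ν (Up i c b)).toReal with hpX
  have hpY0 : 0 < pY := ENNReal.toReal_pos hG.ne' (hfin _)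
  have hpX0 : 0 < pX := ENNReal.toReal_pos hU.ne' (hfin _)
  set ε : ℝ := pY / (2 * (1 / c + 1)) with hε
  have hc1 : 0 < 1 / c + 1 := by positivity
  have hε0 : 0 < ε := by positivity
  obtain ⟨C, hC, hS⟩ := spreadG h i j hij hj
  obtain ⟨R, g, hR, hg, hgs⟩ := greenG h i j hij hC hS one_pos hb' hβ p l₀ hp hε0
  have hB := boxG_lat hij R
  have hcard := boxG_cardEq hj R
  set B := BoxG j R with hBdef
  -- constant from the turn inequality
  have hturn : ∀ z ∈ B, ∃ K : ℝ≥0∞, K ≠ ⊤ ∧ (∑' L : ℕ, ∑' γ : List (Step d),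
      if Hit i ((L : ℤ) + 1) γ then ν (cyl γ) * ν (Ev (AvQ i γ z)) else 0) ≤ K := by
    intro z hz
    obtain ⟨ζ, hζ, hlat, hpos⟩ := lat h i z (hB z hz)
    have ht := turn h i z (hB z hz) ζ hζ hlat
    refine ⟨(ν (cyl ([(i, true), (i, true)] ++ ζ ++ [(i, false)])))⁻¹, ?_, ?_⟩
    · exact ENNReal.inv_ne_top.2 hpos.ne'
    · exact ENNReal.le_inv_iff_mul_le.2 ht
  choose! K hK hKle using hturn
  have hcoll := fun (L : ℕ) (γ : List (Step d)) (hγ : Hit i ((L : ℤ) + 1) γ) =>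
    coll ν i B GY (fun s hs n => (hs.1 n).1) g hg L γ hγ
  have hsum := fun N => coll_sum ν i hc hb g (fun γ => ∑ z ∈ B, ν (Ev (AvQ i γ z)))
    ((B.card : ℝ≥0∞) * ν GY) hcoll N
  have hle : ∀ N : ℕ, (∑ L ∈ Finset.range N, ∑' γ : List (Step d),
      if Hit i ((L : ℤ) + 1) γ then ν (cyl γ) * (∑ z ∈ B, ν (Ev (AvQ i γ z))) else 0)
      ≤ ∑ z ∈ B, K z := by
    intro N
    calc (∑ L ∈ Finset.range N, ∑' γ : List (Step d),
      if Hit i ((L : ℤ) + 1) γ then ν (cyl γ) * (∑ z ∈ B, ν (Ev (AvQ i γ z))) else 0)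
        = ∑ L ∈ Finset.range N, ∑' γ : List (Step d), ∑ z ∈ B,
          (if Hit i ((L : ℤ) + 1) γ then ν (cyl γ) * ν (Ev (AvQ i γ z)) else 0) := by
          refine Finset.sum_congr rfl fun L _ => tsum_congr fun γ => ?_
          split_ifs
          · rw [Finset.mul_sum]
          · simp
      _ = ∑ L ∈ Finset.range N, ∑ z ∈ B, ∑' γ : List (Step d), 
          (if Hit i ((L : ℤ) + 1) γ then ν (cyl γ) * ν (Ev (AvQ i γ z)) else 0) := by
          refine Finset.sum_congr rfl fun L _ => ?_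
          rw [Summable.tsum_finsetSum]
          intro z _
          exact ENNReal.summable
      _ = ∑ z ∈ B, ∑ L ∈ Finset.range N, ∑' γ : List (Step d), 
          (if Hit i ((L : ℤ) + 1) γ then ν (cyl γ) * ν (Ev (AvQ i γ z)) else 0) :=
          Finset.sum_comm
      _ ≤ ∑ z ∈ B, K z := by
          refine Finset.sum_le_sum fun z hz => le_trans ?_ (hKle z hz)
          exact ENNReal.sum_le_tsum _
  set KK : ℝ≥0∞ := ∑ z ∈ B, K z with hKK
  have hKKfin : KK ≠ ⊤ := by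
    rw [hKK]
    exact (ENNReal.sum_ne_top).2 fun z hz => hK z hz
  -- pass to reals
  have hreal : ∀ N : ℕ, (N : ℝ) * ((R : ℝ) ^ q * pY) * pX ≤
      KK.toReal + ((N + b) / c + 1 + N) * (ε * (R : ℝ) ^ q) * pX := by
    intro N
    have h3 : (N : ℝ≥0∞) * ((B.card : ℝ≥0∞) * ν GY) * ν (Up i c b) ≤
        KK + ENNReal.ofReal ((N + b) / c + 1 + N) * ENNReal.ofReal (ε * (R : ℝ) ^ q) *
          ν (Up i c b) := by
      refine (hsum N).trans (add_le_add (hle N) ?_)
      gcongr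
    have hRne : ENNReal.ofReal ((N + b) / c + 1 + N) * ENNReal.ofReal (ε * (R : ℝ) ^ q) *
          ν (Up i c b) ≠ ⊤ := ENNReal.mul_ne_top (ENNReal.mul_ne_top ENNReal.ofReal_ne_top
            ENNReal.ofReal_ne_top) (hfin _)
    have h4 := ENNReal.toReal_mono (ENNReal.add_ne_top.2 ⟨hKKfin, hRne⟩) h3
    rw [ENNReal.toReal_add hKKfin hRne] at h4
    simp only [ENNReal.toReal_mul, ENNReal.toReal_natCast, hcard] at h4
    rw [ENNReal.toReal_ofReal (by positivity), ENNReal.toReal_ofReal (by positivity)] at h4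
    push_cast at h4
    exact h4
  have hR3 : (0 : ℝ) < (R : ℝ) ^ q := by positivity
  -- contradiction
  have hfinal : ∀ N : ℕ, (N : ℝ) * ((R : ℝ) ^ q * pY * pX / 2) ≤
      KK.toReal + (b / c + 1) * (ε * (R : ℝ) ^ q) * pX := by
    intro N
    have h5 := hreal N
    have h6 : ((N + b) / c + 1 + N) * (ε * (R : ℝ) ^ q) * pX =
        (b / c + 1) * (ε * (R : ℝ) ^ q) * pX + N * ((1 / c + 1) * ε) * (R : ℝ) ^ q * pX := by
      ring
    have h7 : (1 / c + 1) * ε = pY / 2 := by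
      rw [hε]; field_simp
    rw [h6, h7] at h5
    nlinarith [h5]
  obtain ⟨N, hN⟩ := exists_nat_gt ((KK.toReal + (b / c + 1) * (ε * (R : ℝ) ^ q) * pX) /
    ((R : ℝ) ^ q * pY * pX / 2))
  have hpos2 : 0 < (R : ℝ) ^ q * pY * pX / 2 := by positivity
  rw [div_lt_iff₀ hpos2] at hN
  exact absurd (hfinal N) (not_le.2 hN)

end Vale.Agent.Lib.P147G
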