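import Vale.Agent.Lib.P147.Final
import Vale.Agent.Lib.P147G.MainG

/-! P147, second version: final statement. -/

open MeasureTheory ProbabilityTheory Filter
open scoped ENNReal

namespace Vale.Agent.Lib.P147G

open Vale.Agent.Lib.P147

variable {d : ℕ}

theorem meas_poly (i : Fin d) (β : ℝ) : MeasurableSet {x : ℕ → Fin d → ℤ |
    ∀ᶠ n : ℕ in atTop, (x n i : ℝ) ≤ -((n : ℝ) ^ β)} := by
  have : {x : ℕ → Fin d → ℤ | ∀ᶠ n : ℕ in atTop, (x n i : ℝ) ≤ -((n : ℝ) ^ β)} =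
      ⋃ M : ℕ, ⋂ n : ℕ, {x : ℕ → Fin d → ℤ | M ≤ n → (x n i : ℝ) ≤ -((n : ℝ) ^ β)} := by
    ext x
    simp only [Set.mem_ofPred_eq, Set.mem_iUnion, Set.mem_iInter, eventually_atTop]
  rw [this]
  refine MeasurableSet.iUnion fun M => MeasurableSet.iInter fun n => ?_
  by_cases hn : M ≤ n
  · simp only [hn, true_implies]
    have hm : Measurable (fun x : ℕ → Fin d → ℤ => (x n i : ℝ)) := by
      have h1 : Measurable (fun x : ℕ → Fin d → ℤ => x n i) :=
        (measurable_pi_apply i).comp (measurable_pi_apply n)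
      exact (measurable_from_top (f := fun z : ℤ => (z : ℝ))).comp h1
    exact measurableSet_le hm measurable_const
  · simp [hn]

/-- all lateral directions -/
theorem exists_lateralG (hd : 4 ≤ d) (i : Fin d) :
    ∃ j : Fin (d - 1) → Fin d, (∀ a, j a ≠ i) ∧ Function.Injective j := by
  have hcard : (Finset.univ.erase i : Finset (Fin d)).card = d - 1 := by
    rw [Finset.card_erase_of_mem (Finset.mem_univ i), Finset.card_univ, Fintype.card_fin]
  let e := (Finset.equivFinOfCardEq hcard).symm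
  refine ⟨fun a => (e a : Fin d), fun a => ?_, fun a b hab => ?_⟩
  · exact Finset.ne_of_mem_erase (e a).2
  · exact e.injective (Subtype.ext hab)

theorem ballistic_poly (hd : 4 ≤ d) {Ω : Type*} [MeasurableSpace Ω] (P : Measure Ω)
    (μ : Measure (Step d → ℝ))
    (env : (Fin d → ℤ) → Ω → Step d → ℝ) (X : ℕ → Ω → Fin d → ℤ) (hX : IsRWRE P μ env X)
    (hμ : ∀ᵐ p ∂μ, (∀ e, 0 ≤ p e) ∧ ∑ e, p e = 1)
    (hpos : ∀ e, 0 < ∫ p, p e ∂μ) (i : Fin d)
    (hup : 0 < P {ω | ∃ c : ℝ, 0 < c ∧ ∀ᶠ n : ℕ in atTop, c * n ≤ (X n ω i : ℝ)})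
    {β : ℝ} (hβ : 2 / ((d : ℝ) - 1) < β) :
    P {ω | ∀ᶠ n : ℕ in atTop, (X n ω i : ℝ) ≤ -((n : ℝ) ^ β)} = 0 := by
  obtain ⟨ν, hν, hE⟩ := model P μ env X hX hμ hpos
  obtain ⟨j, hij, hj⟩ := exists_lateralG hd i
  have hd' : (3 : ℝ) ≤ (d : ℝ) - 1 := by
    have : (4 : ℝ) ≤ d := by exact_mod_cast hd
    linarith
  set β' : ℝ := min β 1 with hβ'
  have hβ'2 : 2 / ((d : ℝ) - 1) < β' := by
    refine lt_min hβ ?_
    rw [div_lt_one (by linarith)]
    linarith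
  have hβ'0 : 0 < β' := lt_trans (by positivity) hβ'2
  have hβ'q : 2 < β' * ((d - 1 : ℕ) : ℝ) := by
    rw [Nat.cast_sub (by omega)]
    rw [div_lt_iff₀ (by linarith)] at hβ'2
    simpa using hβ'2
  -- reduction to `β'`
  have hmono : P {ω | ∀ᶠ n : ℕ in atTop, (X n ω i : ℝ) ≤ -((n : ℝ) ^ β)} ≤
      P {ω | ∀ᶠ n : ℕ in atTop, (X n ω i : ℝ) ≤ -((n : ℝ) ^ β')} := by
    refine measure_mono fun ω hω => ?_
    simp only [Set.mem_ofPred_eq] at hω ⊢
    filter_upwards [hω, eventually_ge_atTop 1] with n hn h1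
    refine hn.trans (neg_le_neg ?_)
    exact Real.rpow_le_rpow_of_exponent_le (by exact_mod_cast h1) (min_le_left _ _)
  by_contra hcon
  have hpos2 : 0 < P {ω | ∀ᶠ n : ℕ in atTop, (X n ω i : ℝ) ≤ -((n : ℝ) ^ β')} :=
    lt_of_lt_of_le (pos_iff_ne_zero.2 hcon) hmono
  have e1 := hE _ (meas_up i)
  have e2 := hE _ (meas_poly i β')
  simp only [Set.mem_ofPred_eq] at e1 e2
  refine mainG hν i j hij hj hβ'0 (min_le_right _ _) hβ'q ?_ ?_
  · rw [← e1]; exact hup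
  · rw [← e2]; exact hpos2

end Vale.Agent.Lib.P147G
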